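import Vale.Agent.P063_h5.Prod

/-!
Polynomials in independent mean zero variables and the Bonami lemma.
-/

namespace Vale.Agent.P063h5

open Finset

set_option linter.unusedSectionVars false

section

variable {ι Ω : Type*} [Fintype ι] [DecidableEq ι] [Fintype Ω]

/-- monomial `∏_{e ∈ S} y(ω_e)` -/
noncomputable def mon (y : Ω → ℝ) (S : Finset ι) (ω : ι → Ω) : ℝ := ∏ e ∈ S, y (ω e)

/-- polynomial with coefficients `c`, supported on subsets of `U` -/
noncomputable def polyU (y : Ω → ℝ) (U : Finset ι) (c : Finset ι → ℝ) (ω : ι → Ω) : ℝ :=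
  ∑ S ∈ U.powerset, c S * mon y S ω

/-- polynomial with coefficients `c` -/
noncomputable def poly (y : Ω → ℝ) (c : Finset ι → ℝ) (ω : ι → Ω) : ℝ :=
  ∑ S : Finset ι, c S * mon y S ω

theorem polyU_univ (y : Ω → ℝ) (c : Finset ι → ℝ) (ω : ι → Ω) :
    polyU y univ c ω = poly y c ω := by
  simp [polyU, poly]

theorem mon_update (y : Ω → ℝ) {S : Finset ι} {e : ι} (he : e ∉ S) (ω : ι → Ω) (a : Ω) :
    mon y S (Function.update ω e a) = mon y S ω := by
  unfold mon
  apply prod_congr rfl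
  intro i hi
  rw [Function.update_of_ne]
  rintro rfl
  exact he hi

theorem mon_insert (y : Ω → ℝ) {S : Finset ι} {e : ι} (he : e ∉ S) (ω : ι → Ω) :
    mon y (insert e S) ω = y (ω e) * mon y S ω := by
  unfold mon
  rw [prod_insert he]

theorem polyU_update (y : Ω → ℝ) {U : Finset ι} {e : ι} (he : e ∉ U) (c : Finset ι → ℝ)
    (ω : ι → Ω) (a : Ω) : polyU y U c (Function.update ω e a) = polyU y U c ω := by
  unfold polyU
  apply sum_congr rfl
  intro S hS
  rw [mon_update y (fun h => he (mem_powerset.1 hS h))]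

theorem polyU_insert (y : Ω → ℝ) {U : Finset ι} {e : ι} (he : e ∉ U) (c : Finset ι → ℝ)
    (ω : ι → Ω) : polyU y (insert e U) c ω
      = polyU y U c ω + y (ω e) * polyU y U (fun S => c (insert e S)) ω := by
  unfold polyU
  rw [sum_powerset_insert he, mul_sum]
  congr 1
  apply sum_congr rfl
  intro S hS
  rw [mon_insert y (fun h => he (mem_powerset.1 hS h))]
  ring

/-- orthogonality of the monomials -/
theorem ex_mon_mul {w : Ω → ℝ} (hw1 : ∑ a, w a = 1) {y : Ω → ℝ} {τ : ℝ}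
    (h1 : ∑ a, w a * y a = 0) (h2 : ∑ a, w a * y a ^ 2 = τ) (S R : Finset ι) :
    ex w (fun ω => mon y S ω * mon y R ω) = if S = R then τ ^ S.card else 0 := by
  have h3 : ∀ ω : ι → Ω, mon y S ω * mon y R ω
      = ∏ e, ((if e ∈ S then y (ω e) else 1) * (if e ∈ R then y (ω e) else 1)) := by
    intro ω
    rw [prod_mul_distrib, prod_ite_mem, prod_ite_mem, univ_inter, univ_inter]
    rfl
  rw [ex_congr w h3, ex_prod w (fun e a => (if e ∈ S then y a else 1) * (if e ∈ R then y a else 1))]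
  have h4 : ∀ e : ι, ∑ a, w a * ((if e ∈ S then y a else 1) * (if e ∈ R then y a else 1))
      = if e ∈ S then (if e ∈ R then τ else 0) else (if e ∈ R then 0 else 1) := by
    intro e
    by_cases hS : e ∈ S <;> by_cases hR : e ∈ R
    · simp only [hS, hR, if_true]
      rw [← h2]
      exact sum_congr rfl fun a _ => by ring
    · simp only [hS, hR, if_true, if_false, mul_one]
      exact h1
    · simp only [hS, hR, if_true, if_false, one_mul]
      exact h1
    · simp only [hS, hR, if_false, mul_one]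
      exact hw1
  simp_rw [h4]
  by_cases hSR : S = R
  · subst hSR
    rw [if_pos rfl]
    have h5 : ∀ e : ι, (if e ∈ S then (if e ∈ S then τ else 0) else (if e ∈ S then 0 else 1))
        = if e ∈ S then τ else 1 := by
      intro e
      by_cases h : e ∈ S <;> simp [h]
    simp_rw [h5]
    rw [prod_ite_mem, univ_inter, prod_const]
  · rw [if_neg hSR]
    have h6 : ∃ e, ¬ (e ∈ S ↔ e ∈ R) := by
      by_contra hcon
      push Not at hcon
      exact hSR (Finset.ext hcon)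
    obtain ⟨e, he⟩ := h6
    apply prod_eq_zero (mem_univ e)
    by_cases hS : e ∈ S <;> by_cases hR : e ∈ R <;> simp_all

theorem ex_poly_mul {w : Ω → ℝ} (hw1 : ∑ a, w a = 1) {y : Ω → ℝ} {τ : ℝ}
    (h1 : ∑ a, w a * y a = 0) (h2 : ∑ a, w a * y a ^ 2 = τ) (c c' : Finset ι → ℝ) :
    ex w (fun ω => poly y c ω * poly y c' ω) = ∑ S : Finset ι, c S * c' S * τ ^ S.card := by
  have h3 : ∀ ω : ι → Ω, poly y c ω * poly y c' ω
      = ∑ S : Finset ι, ∑ R : Finset ι, (c S * c' R) * (mon y S ω * mon y R ω) := by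
    intro ω
    unfold poly
    rw [sum_mul_sum]
    exact sum_congr rfl fun S _ => sum_congr rfl fun R _ => by ring
  rw [ex_congr w h3, ex_sum]
  apply sum_congr rfl
  intro S _
  rw [ex_sum]
  have h4 : ∀ R : Finset ι, ex w (fun ω => (c S * c' R) * (mon y S ω * mon y R ω))
      = if S = R then c S * c' R * τ ^ S.card else 0 := by
    intro R
    rw [ex_const_mul, ex_mon_mul hw1 h1 h2]
    split_ifs <;> simp
  simp_rw [h4]
  rw [sum_ite_eq]
  simp

/-- The Bonami lemma. -/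
theorem bonami_aux {w : Ω → ℝ} (hw0 : ∀ a, 0 ≤ w a) (hw1 : ∑ a, w a = 1) {y : Ω → ℝ} {τ A : ℝ}
    (h1 : ∑ a, w a * y a = 0) (h2 : ∑ a, w a * y a ^ 2 = τ) (hτ : 0 < τ) (hA : 16 ≤ A)
    (h4 : 3 * ∑ a, w a * y a ^ 4 ≤ A * τ ^ 2) (U : Finset ι) :
    ∀ (d : ℕ) (c : Finset ι → ℝ), (∀ S, S ⊆ U → d < S.card → c S = 0) →
      ex w (fun ω => polyU y U c ω ^ 4) ≤ A ^ d * (ex w (fun ω => polyU y U c ω ^ 2)) ^ 2 := by
  induction U using Finset.induction_on with
  | empty =>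
    intro d c _
    have h5 : ∀ ω : ι → Ω, polyU y ∅ c ω = c ∅ := by
      intro ω
      simp [polyU, mon]
    simp_rw [h5]
    rw [ex_const hw1, ex_const hw1]
    have h6 : (1:ℝ) ≤ A ^ d := one_le_pow₀ (by linarith)
    nlinarith [sq_nonneg (c ∅ ^ 2), sq_nonneg (c ∅)]
  | insert e U he ih =>
    intro d c hc
    set P0 : (ι → Ω) → ℝ := polyU y U c with hP0
    set P1 : (ι → Ω) → ℝ := polyU y U (fun S => c (insert e S)) with hP1
    have hup0 : ∀ ω a, P0 (Function.update ω e a) = P0 ω := fun ω a => polyU_update y he c ω a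
    have hup1 : ∀ ω a, P1 (Function.update ω e a) = P1 ω := fun ω a => polyU_update y he _ ω a
    have hins : ∀ ω, polyU y (insert e U) c ω = P0 ω + y (ω e) * P1 ω := fun ω =>
      polyU_insert y he c ω
    simp_rw [hins]
    rcases Nat.eq_zero_or_pos d with hd | hd
    · -- degree zero
      subst hd
      have hz : ∀ ω, P1 ω = 0 := by
        intro ω
        simp only [hP1, polyU]
        apply sum_eq_zero
        intro S hS
        rw [hc (insert e S) (insert_subset_insert e (mem_powerset.1 hS))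
          (card_pos.2 ⟨e, mem_insert_self e S⟩), zero_mul]
      simp_rw [hz, mul_zero, add_zero]
      exact ih 0 c (fun S hS h => hc S (hS.trans (subset_insert e U)) h)
    · obtain ⟨d', rfl⟩ : ∃ d', d = d' + 1 := ⟨d - 1, by omega⟩
      have ih0 := ih (d' + 1) c (fun S hS h => hc S (hS.trans (subset_insert e U)) h)
      have ih1 := ih d' (fun S => c (insert e S)) (fun S hS h => by
        apply hc (insert e S) (insert_subset_insert e hS)
        rw [card_insert_of_notMem (fun h' => he (hS h'))]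
        omega)
      rw [← hP0] at ih0
      rw [← hP1] at ih1
      -- moments
      set κ3 : ℝ := ∑ a, w a * y a ^ 3 with hκ3
      set κ4 : ℝ := ∑ a, w a * y a ^ 4 with hκ4
      have hκ4nn : 0 ≤ κ4 := sum_nonneg fun a _ => mul_nonneg (hw0 a) (by positivity)
      have hκ : κ3 ^ 2 ≤ τ * κ4 := by
        rw [← h2, hκ3, hκ4]
        apply Finset.sum_sq_le_sum_mul_sum_of_sq_le_mul
        · intro a _
          exact mul_nonneg (hw0 a) (sq_nonneg _)
        · intro a _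
          exact mul_nonneg (hw0 a) (by positivity)
        · intro a _
          apply le_of_eq
          ring
      -- second moment
      have hsec : ex w (fun ω => (P0 ω + y (ω e) * P1 ω) ^ 2)
          = ex w (fun ω => P0 ω ^ 2) + τ * ex w (fun ω => P1 ω ^ 2) := by
        have e1 : ∀ ω, (P0 ω + y (ω e) * P1 ω) ^ 2
            = P0 ω ^ 2 + (2 * (y (ω e) * (P0 ω * P1 ω)) + y (ω e) ^ 2 * P1 ω ^ 2) := fun ω => by ring
        rw [ex_congr w e1, ex_add, ex_add, ex_const_mul]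
        rw [ex_indep hw1 e y (fun ω => P0 ω * P1 ω) (fun ω a => by rw [hup0, hup1]), h1]
        rw [ex_indep hw1 e (fun a => y a ^ 2) (fun ω => P1 ω ^ 2) (fun ω a => by rw [hup1]), h2]
        ring
      have hfour : ex w (fun ω => (P0 ω + y (ω e) * P1 ω) ^ 4)
          = ex w (fun ω => P0 ω ^ 4) + 6 * τ * ex w (fun ω => P0 ω ^ 2 * P1 ω ^ 2)
            + 4 * κ3 * ex w (fun ω => P0 ω * P1 ω ^ 3) + κ4 * ex w (fun ω => P1 ω ^ 4) := by
        have e1 : ∀ ω, (P0 ω + y (ω e) * P1 ω) ^ 4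
            = P0 ω ^ 4 + (4 * (y (ω e) * (P0 ω ^ 3 * P1 ω))
              + (6 * (y (ω e) ^ 2 * (P0 ω ^ 2 * P1 ω ^ 2))
              + (4 * (y (ω e) ^ 3 * (P0 ω * P1 ω ^ 3)) + y (ω e) ^ 4 * P1 ω ^ 4))) :=
          fun ω => by ring
        rw [ex_congr w e1, ex_add, ex_add, ex_add, ex_add, ex_const_mul, ex_const_mul,
          ex_const_mul]
        rw [ex_indep hw1 e y (fun ω => P0 ω ^ 3 * P1 ω) (fun ω a => by rw [hup0, hup1]), h1]
        rw [ex_indep hw1 e (fun a => y a ^ 2) (fun ω => P0 ω ^ 2 * P1 ω ^ 2)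
          (fun ω a => by rw [hup0, hup1]), h2]
        rw [ex_indep hw1 e (fun a => y a ^ 3) (fun ω => P0 ω * P1 ω ^ 3)
          (fun ω a => by rw [hup0, hup1])]
        rw [ex_indep hw1 e (fun a => y a ^ 4) (fun ω => P1 ω ^ 4)
          (fun ω a => by rw [hup1])]
        ring
      rw [hsec, hfour]
      set m0 := ex w (fun ω => P0 ω ^ 2) with hm0
      set m1 := ex w (fun ω => P1 ω ^ 2) with hm1
      set X := ex w (fun ω => P0 ω ^ 2 * P1 ω ^ 2) with hX
      set Y := ex w (fun ω => P0 ω * P1 ω ^ 3) with hY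
      set q0 := ex w (fun ω => P0 ω ^ 4) with hq0
      set q1 := ex w (fun ω => P1 ω ^ 4) with hq1
      have hm0nn : 0 ≤ m0 := ex_nonneg hw0 fun ω => sq_nonneg _
      have hm1nn : 0 ≤ m1 := ex_nonneg hw0 fun ω => sq_nonneg _
      have hXnn : 0 ≤ X := ex_nonneg hw0 fun ω => by positivity
      have hq0nn : 0 ≤ q0 := ex_nonneg hw0 fun ω => by positivity
      have hq1nn : 0 ≤ q1 := ex_nonneg hw0 fun ω => by positivity
      have hA0 : 0 < A := by linarith
      -- Cauchy-Schwarz for X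
      have hXsq : X ^ 2 ≤ q0 * q1 := by
        have := ex_mul_sq_le hw0 (fun ω => P0 ω ^ 2) (fun ω => P1 ω ^ 2)
        have e2 : ∀ ω, (P0 ω ^ 2) ^ 2 = P0 ω ^ 4 := fun ω => by ring
        have e3 : ∀ ω, (P1 ω ^ 2) ^ 2 = P1 ω ^ 4 := fun ω => by ring
        simp_rw [e2, e3] at this
        exact this
      have hYsq : Y ^ 2 ≤ X * q1 := by
        have := ex_mul_sq_le hw0 (fun ω => P0 ω * P1 ω) (fun ω => P1 ω ^ 2)
        have e2 : ∀ ω, (P0 ω * P1 ω) ^ 2 = P0 ω ^ 2 * P1 ω ^ 2 := fun ω => by ring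
        have e3 : ∀ ω, (P1 ω ^ 2) ^ 2 = P1 ω ^ 4 := fun ω => by ring
        have e4 : ∀ ω, P0 ω * P1 ω * P1 ω ^ 2 = P0 ω * P1 ω ^ 3 := fun ω => by ring
        simp_rw [e2, e3, e4] at this
        exact this
      -- the cross term
      have hcross : 4 * κ3 * Y ≤ 2 * τ * X + 2 * κ4 * q1 := by
        have hs1 : (2 * κ3 * Y) ^ 2 ≤ (τ * X + κ4 * q1) ^ 2 := by
          have t1 : (2 * κ3 * Y) ^ 2 = 4 * (κ3 ^ 2 * Y ^ 2) := by ring
          have t2 : κ3 ^ 2 * Y ^ 2 ≤ (τ * κ4) * (X * q1) :=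
            mul_le_mul hκ hYsq (sq_nonneg _) (by positivity)
          nlinarith [sq_nonneg (τ * X - κ4 * q1)]
        have hs2 := (le_abs_self _).trans (abs_le_of_sq_le_sq hs1 (by positivity))
        linarith
      have hXle : X ≤ A ^ (d' + 1) / 4 * (m0 * m1) := by
        have hs3 : X ^ 2 ≤ (A ^ (d' + 1) / 4 * (m0 * m1)) ^ 2 := by
          calc X ^ 2 ≤ q0 * q1 := hXsq
            _ ≤ (A ^ (d' + 1) * m0 ^ 2) * (A ^ d' * m1 ^ 2) :=
                mul_le_mul ih0 ih1 hq1nn (by positivity)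
            _ = A ^ (2 * d' + 1) * (m0 * m1) ^ 2 := by ring
            _ ≤ (A ^ (2 * d' + 1) * (A / 16)) * (m0 * m1) ^ 2 := by
                apply mul_le_mul_of_nonneg_right _ (sq_nonneg _)
                have : (0:ℝ) < A ^ (2 * d' + 1) := by positivity
                nlinarith
            _ = (A ^ (d' + 1) / 4 * (m0 * m1)) ^ 2 := by ring
        exact (le_abs_self _).trans (abs_le_of_sq_le_sq hs3 (by positivity))
      have hq1le : 3 * κ4 * q1 ≤ A ^ (d' + 1) * (τ ^ 2 * m1 ^ 2) := by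
        calc 3 * κ4 * q1 ≤ (A * τ ^ 2) * (A ^ d' * m1 ^ 2) :=
              mul_le_mul h4 ih1 hq1nn (by positivity)
          _ = A ^ (d' + 1) * (τ ^ 2 * m1 ^ 2) := by ring
      have hXle' : 8 * τ * X ≤ 8 * τ * (A ^ (d' + 1) / 4 * (m0 * m1)) :=
        mul_le_mul_of_nonneg_left hXle (by positivity)
      calc q0 + 6 * τ * X + 4 * κ3 * Y + κ4 * q1
          ≤ q0 + 8 * τ * X + 3 * κ4 * q1 := by linarith
        _ ≤ A ^ (d' + 1) * m0 ^ 2 + 8 * τ * (A ^ (d' + 1) / 4 * (m0 * m1))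
            + A ^ (d' + 1) * (τ ^ 2 * m1 ^ 2) := by linarith
        _ = A ^ (d' + 1) * (m0 + τ * m1) ^ 2 := by ring

/-- The Bonami lemma for polynomials of degree at most `d`. -/
theorem bonami {w : Ω → ℝ} (hw0 : ∀ a, 0 ≤ w a) (hw1 : ∑ a, w a = 1) {y : Ω → ℝ} {τ A : ℝ}
    (h1 : ∑ a, w a * y a = 0) (h2 : ∑ a, w a * y a ^ 2 = τ) (hτ : 0 < τ) (hA : 16 ≤ A)
    (h4 : 3 * ∑ a, w a * y a ^ 4 ≤ A * τ ^ 2) (d : ℕ) (c : Finset ι → ℝ)
    (hc : ∀ S : Finset ι, d < S.card → c S = 0) :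
    ex w (fun ω => poly y c ω ^ 4) ≤ A ^ d * (ex w (fun ω => poly y c ω ^ 2)) ^ 2 := by
  have := bonami_aux hw0 hw1 h1 h2 hτ hA h4 (univ : Finset ι) d c (fun S _ h => hc S h)
  simp_rw [polyU_univ] at this
  exact this

/-- The level inequality: if `h` is a function and `P` the polynomial with coefficients `c` of
degree at most `d`, then `(E hP)^4 ≤ (E|h|)^2 E h^2 A^d (E P^2)^2`. -/
theorem level_ineq {w : Ω → ℝ} (hw0 : ∀ a, 0 ≤ w a) (hw1 : ∑ a, w a = 1) {y : Ω → ℝ} {τ A : ℝ}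
    (h1 : ∑ a, w a * y a = 0) (h2 : ∑ a, w a * y a ^ 2 = τ) (hτ : 0 < τ) (hA : 16 ≤ A)
    (h4 : 3 * ∑ a, w a * y a ^ 4 ≤ A * τ ^ 2) (d : ℕ) (c : Finset ι → ℝ)
    (hc : ∀ S : Finset ι, d < S.card → c S = 0) (h : (ι → Ω) → ℝ) :
    (ex w (fun ω => h ω * poly y c ω)) ^ 4 ≤
      (ex w (fun ω => |h ω|)) ^ 2 * ex w (fun ω => h ω ^ 2) *
        (A ^ d * (ex w (fun ω => poly y c ω ^ 2)) ^ 2) := by
  set P := poly y c with hP
  have hbon := bonami hw0 hw1 h1 h2 hτ hA h4 d c hc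
  rw [← hP] at hbon
  -- first Cauchy-Schwarz
  have c1 : (ex w (fun ω => h ω * P ω)) ^ 2 ≤ ex w (fun ω => |h ω|) * ex w (fun ω => |h ω| * P ω ^ 2) := by
    unfold ex
    apply Finset.sum_sq_le_sum_mul_sum_of_sq_le_mul
    · intro ω _
      exact mul_nonneg (prod_nonneg fun e _ => hw0 _) (abs_nonneg _)
    · intro ω _
      exact mul_nonneg (prod_nonneg fun e _ => hw0 _) (by positivity)
    · intro ω _
      apply le_of_eq
      have : h ω ^ 2 = |h ω| * |h ω| := by rw [← sq, sq_abs]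
      calc ((∏ e, w (ω e)) * (h ω * P ω)) ^ 2 = (∏ e, w (ω e)) ^ 2 * (h ω ^ 2 * P ω ^ 2) := by ring
        _ = _ := by rw [this]; ring
  have c2 : (ex w (fun ω => |h ω| * P ω ^ 2)) ^ 2 ≤ ex w (fun ω => h ω ^ 2) * ex w (fun ω => P ω ^ 4) := by
    have := ex_mul_sq_le hw0 (fun ω => |h ω|) (fun ω => P ω ^ 2)
    have e2 : ∀ ω, (P ω ^ 2) ^ 2 = P ω ^ 4 := fun ω => by ring
    simp_rw [sq_abs, e2] at this
    exact this
  have n1 : 0 ≤ ex w (fun ω => |h ω|) := ex_nonneg hw0 fun ω => abs_nonneg _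
  have n2 : 0 ≤ ex w (fun ω => h ω ^ 2) := ex_nonneg hw0 fun ω => sq_nonneg _
  have n3 : 0 ≤ ex w (fun ω => |h ω| * P ω ^ 2) := ex_nonneg hw0 fun ω => by positivity
  calc (ex w (fun ω => h ω * P ω)) ^ 4 = ((ex w (fun ω => h ω * P ω)) ^ 2) ^ 2 := by ring
    _ ≤ (ex w (fun ω => |h ω|) * ex w (fun ω => |h ω| * P ω ^ 2)) ^ 2 :=
        pow_le_pow_left₀ (sq_nonneg _) c1 2
    _ = (ex w (fun ω => |h ω|)) ^ 2 * (ex w (fun ω => |h ω| * P ω ^ 2)) ^ 2 := by ring
    _ ≤ (ex w (fun ω => |h ω|)) ^ 2 * (ex w (fun ω => h ω ^ 2) * ex w (fun ω => P ω ^ 4)) :=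
        mul_le_mul_of_nonneg_left c2 (sq_nonneg _)
    _ ≤ (ex w (fun ω => |h ω|)) ^ 2 * (ex w (fun ω => h ω ^ 2) *
          (A ^ d * (ex w (fun ω => P ω ^ 2)) ^ 2)) :=
        mul_le_mul_of_nonneg_left (mul_le_mul_of_nonneg_left hbon n2) (sq_nonneg _)
    _ = _ := by ring

end

end Vale.Agent.P063h5
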