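import Vale.Agent.P063_h5.Restrict

/-!
Symmetry: relabelling the coordinates by a permutation which leaves `f` invariant.
-/

namespace Vale.Agent.P063h5

open Finset

set_option linter.unusedSectionVars false

section

variable {ι : Type*} [Fintype ι] [DecidableEq ι]

theorem mon_map {Ω : Type*} (y : Ω → ℝ) (ρ : ι ≃ ι) (S : Finset ι) (ω : ι → Ω) :
    mon y (S.map ρ.toEmbedding) ω = mon y S (ω ∘ ρ) := by
  unfold mon
  rw [prod_map]
  rfl

theorem fhat_map (p : ℝ) (f : (ι → Bool) → ℝ) (ρ : ι ≃ ι) (hρ : ∀ x, f (x ∘ ρ) = f x)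
    (S : Finset ι) : fhat p f (S.map ρ.toEmbedding) = fhat p f S := by
  unfold fhat
  rw [← ex_comp_equiv (wb p) ρ (fun x => f x * mon (ph p) S x)]
  apply ex_congr
  intro x
  rw [mon_map, hρ]

theorem GT_map (p : ℝ) (f : (ι → Bool) → ℝ) (ρ : ι ≃ ι) (hρ : ∀ x, f (x ∘ ρ) = f x)
    (T : Finset ι) (ω : ι → Bool × Bool) :
    GT p f (T.map ρ.toEmbedding) ω = GT p f T (ω ∘ ρ) := by
  unfold GT
  rw [mon_map]
  congr 1
  symm
  apply Fintype.sum_equiv (Equiv.finsetCongr ρ)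
  intro S
  rw [Equiv.finsetCongr_apply, fhat_map p f ρ hρ]
  by_cases h : T ⊆ S
  · rw [if_pos h, if_pos (map_subset_map.2 h)]
    congr 1
    rw [← mon_map, Finset.map_sdiff]
  · rw [if_neg h, if_neg (fun h' => h (map_subset_map.1 h'))]

theorem InfE_map (p : ℝ) (f : (ι → Bool) → ℝ) (ρ : ι ≃ ι) (hρ : ∀ x, f (x ∘ ρ) = f x)
    (ω : ι → Bool × Bool) (e : ι) :
    InfE p f ω (ρ e) = InfE p f (ω ∘ ρ) e := by
  unfold InfE
  symm
  apply Fintype.sum_equiv (Equiv.finsetCongr ρ)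
  intro T
  rw [Equiv.finsetCongr_apply, GT_map p f ρ hρ]
  have hmem : ρ e ∈ T.map ρ.toEmbedding ↔ e ∈ T := mem_map' ρ.toEmbedding
  by_cases h : e ∈ T
  · rw [if_pos h, if_pos (hmem.2 h)]
  · rw [if_neg h, if_neg (fun h' => h (hmem.1 h'))]

end

end Vale.Agent.P063h5
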