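import Vale.Agent.P063_h5.CoreA
import Vale.Agent.P063_h5.Symm

/-!
Assembly of the analytic core.
-/

namespace Vale.Agent.P063h5

open Finset

set_option linter.unusedSectionVars false

section

variable {ι : Type*} [Fintype ι] [DecidableEq ι]

theorem JJ_map (p s : ℝ) (f : (ι → Bool) → ℝ) (ρ : ι ≃ ι) (hρ : ∀ x, f (x ∘ ρ) = f x)
    (ω : ι → Bool × Bool) : JJ p s f ω = (JJ p s f (ω ∘ ρ)).map ρ.toEmbedding := by
  ext e
  obtain ⟨e', rfl⟩ := ρ.surjective e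
  rw [show ρ e' = ρ.toEmbedding e' from rfl, mem_map' ρ.toEmbedding]
  unfold JJ
  rw [mem_filter, mem_filter]
  simp only [mem_univ, true_and]
  rw [show ρ.toEmbedding e' = ρ e' from rfl, InfE_map p f ρ hρ]

theorem G1_map (p s m : ℝ) (f : (ι → Bool) → ℝ) (ρ : ι ≃ ι) (hρ : ∀ x, f (x ∘ ρ) = f x)
    (T : Finset ι) (ω : ι → Bool × Bool) :
    G1 p s m f (T.map ρ.toEmbedding) ω = G1 p s m f T (ω ∘ ρ) := by
  have h1 : (T.map ρ.toEmbedding ⊆ JJ p s f ω ∧ ((JJ p s f ω).card : ℝ) ≤ m ^ 4)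
      ↔ (T ⊆ JJ p s f (ω ∘ ρ) ∧ ((JJ p s f (ω ∘ ρ)).card : ℝ) ≤ m ^ 4) := by
    rw [JJ_map p s f ρ hρ ω, map_subset_map, card_map]
  unfold G1
  by_cases h : T ⊆ JJ p s f (ω ∘ ρ) ∧ ((JJ p s f (ω ∘ ρ)).card : ℝ) ≤ m ^ 4
  · rw [if_pos h, if_pos (h1.2 h), GT_map p f ρ hρ]
  · rw [if_neg h, if_neg (fun h' => h (h1.1 h'))]

theorem ex_G1_map (δ p s m : ℝ) (f : (ι → Bool) → ℝ) (ρ : ι ≃ ι) (hρ : ∀ x, f (x ∘ ρ) = f x)
    (T : Finset ι) :
    ex (w2 δ p) (fun ω => |G1 p s m f (T.map ρ.toEmbedding) ω|)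
      = ex (w2 δ p) (fun ω => |G1 p s m f T ω|) := by
  rw [← ex_comp_equiv (w2 δ p) ρ (fun ω => |G1 p s m f T ω|)]
  apply ex_congr
  intro ω
  rw [G1_map p s m f ρ hρ]

theorem one_sub_pow_ge {σ k : ℕ} (hk : 1 ≤ k) (hkσ : k ≤ σ) :
    (1 / 2 : ℝ) ^ k ≤ (1 - (k : ℝ) / (2 * σ)) ^ σ := by
  have hσ : (0:ℝ) < σ := by exact_mod_cast (by omega : 0 < σ)
  have hk' : (0:ℝ) < k := by exact_mod_cast hk
  have hkσ' : (k:ℝ) ≤ σ := by exact_mod_cast hkσ
  have hδ : (k : ℝ) / (2 * σ) ≤ 1 / 2 := by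
    rw [div_le_div_iff₀ (by positivity) (by norm_num)]
    linarith
  have hδ0 : 0 < (k : ℝ) / (2 * σ) := by positivity
  set δ : ℝ := (k : ℝ) / (2 * σ) with hδdef
  have h1 : (1:ℝ) ≤ (σ:ℝ) / k := by
    rw [le_div_iff₀ hk']
    linarith
  have h2 := one_add_mul_self_le_rpow_one_add (s := -δ) (by linarith) (p := (σ:ℝ) / k) h1
  have h3 : 1 + (σ:ℝ) / k * -δ = 1 / 2 := by
    rw [hδdef]
    field_simp
    norm_num
  rw [h3] at h2
  have h4 : (1 / 2 : ℝ) ^ k ≤ ((1 + -δ) ^ ((σ:ℝ) / k)) ^ k := pow_le_pow_left₀ (by norm_num) h2 k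
  have h5 : ((1 + -δ) ^ ((σ:ℝ) / k)) ^ k = (1 - δ) ^ σ := by
    rw [← Real.rpow_natCast ((1 + -δ) ^ ((σ:ℝ) / k)) k, ← Real.rpow_mul (by linarith),
      div_mul_cancel₀ _ hk'.ne', Real.rpow_natCast]
    ring
  rw [h5] at h4
  exact h4

/-- the weight of good `k`-subsets -/
theorem weight_ge {σ k : ℕ} (hk : 1 ≤ k) (hkσ : k ≤ σ) {c : ℝ}
    (hc : ((σ:ℝ) / 2) ^ k ≤ (k.factorial : ℝ) * c) :
    1 ≤ 8 ^ k * (((k : ℝ) / (2 * σ)) ^ k * (1 - (k : ℝ) / (2 * σ)) ^ (σ - k) * c) := by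
  have hσ : (0:ℝ) < σ := by exact_mod_cast (by omega : 0 < σ)
  have hk' : (0:ℝ) < k := by exact_mod_cast hk
  have hkσ' : (k:ℝ) ≤ σ := by exact_mod_cast hkσ
  have hδ : (k : ℝ) / (2 * σ) ≤ 1 / 2 := by
    rw [div_le_div_iff₀ (by positivity) (by norm_num)]
    linarith
  have hδ0 : 0 < (k : ℝ) / (2 * σ) := by positivity
  have h1 := one_sub_pow_ge hk hkσ
  set δ : ℝ := (k : ℝ) / (2 * σ) with hδdef
  have h2 : (1 - δ) ^ σ ≤ (1 - δ) ^ (σ - k) :=
    pow_le_pow_of_le_one (by linarith) (by linarith) (Nat.sub_le _ _)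
  have hfac : (0:ℝ) < k.factorial := by exact_mod_cast Nat.factorial_pos k
  have hfac2 : (k.factorial : ℝ) ≤ (k:ℝ) ^ k := by exact_mod_cast Nat.factorial_le_pow k
  have hc0 : 0 < c := by
    have : 0 < (k.factorial : ℝ) * c := lt_of_lt_of_le (by positivity) hc
    exact (mul_pos_iff_of_pos_left hfac).1 this
  have h3 : (1 / 4 : ℝ) ^ k ≤ δ ^ k * c := by
    have h4 : (k.factorial : ℝ) * (1 / 4 : ℝ) ^ k ≤ (k.factorial : ℝ) * (δ ^ k * c) := by
      calc (k.factorial : ℝ) * (1 / 4 : ℝ) ^ k ≤ (k:ℝ) ^ k * (1 / 4 : ℝ) ^ k :=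
            mul_le_mul_of_nonneg_right hfac2 (by positivity)
        _ = δ ^ k * ((σ:ℝ) / 2) ^ k := by
            rw [← mul_pow, ← mul_pow, hδdef]
            congr 1
            field_simp
            norm_num
        _ ≤ δ ^ k * ((k.factorial : ℝ) * c) := mul_le_mul_of_nonneg_left hc (by positivity)
        _ = _ := by ring
    exact le_of_mul_le_mul_left h4 hfac
  have h5 : (1 / 4 : ℝ) ^ k * (1 / 2 : ℝ) ^ k ≤ (δ ^ k * c) * (1 - δ) ^ (σ - k) :=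
    mul_le_mul h3 (h1.trans h2) (by positivity) (by positivity)
  have h6 : (8:ℝ) ^ k * ((1 / 4 : ℝ) ^ k * (1 / 2 : ℝ) ^ k) = 1 := by
    rw [← mul_pow, ← mul_pow]
    norm_num
  calc (1:ℝ) = 8 ^ k * ((1 / 4 : ℝ) ^ k * (1 / 2 : ℝ) ^ k) := h6.symm
    _ ≤ 8 ^ k * ((δ ^ k * c) * (1 - δ) ^ (σ - k)) :=
        mul_le_mul_of_nonneg_left h5 (by positivity)
    _ = _ := by ring

/-- analytic core -/
theorem core (f : (ι → Bool) → ℝ)
    (hf : ∀ x, f x = 0 ∨ f x = 1) (p : ℝ) (hp0 : 0 < p) (hp1 : p < 1) (σ k : ℕ) (hk : 1 ≤ k)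
    (hkσ : k ≤ σ) (𝒯 : Finset (Finset ι)) (h𝒯 : ∀ T ∈ 𝒯, T.card = k) (N : ℝ) (hN : 0 < N)
    (hsym : ∀ T ∈ 𝒯, ∃ O : Finset (Finset ι), N ≤ O.card ∧
      ∀ T' ∈ O, ∃ ρ : ι ≃ ι, (∀ x, f (x ∘ ρ) = f x) ∧ T' = T.map ρ.toEmbedding)
    (hcount : ∀ S : Finset ι, S.card = σ →
      ((σ:ℝ) / 2) ^ k ≤ (k.factorial : ℝ) * (𝒯.filter (fun T => T ⊆ S)).card)
    (s m : ℝ) (hs : 0 < s) (hm : 0 < m) :
    lev p f σ ≤ 8 ^ k * (2 * Real.sqrt (2 * σ / k) ^ k
        * Real.sqrt (16 / (p * (1 - p))) ^ (σ - k) * m ^ (3 * k) * Real.sqrt (1 / N)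
      + 2 * (Real.sqrt (16 / (p * (1 - p))) ^ k * s + 1 / (s ^ 2 * m ^ 4)) * Kf p f) := by
  have hσ : (0:ℝ) < σ := by exact_mod_cast (by omega : 0 < σ)
  have hk' : (0:ℝ) < k := by exact_mod_cast hk
  have hkσ' : (k:ℝ) ≤ σ := by exact_mod_cast hkσ
  set δ : ℝ := (k : ℝ) / (2 * σ) with hδdef
  have hδ1 : δ ≤ 1 / 2 := by
    rw [hδdef, div_le_div_iff₀ (by positivity) (by norm_num)]
    linarith
  have hδ0 : 0 < δ := by positivity
  have hw0 : ∀ a, 0 ≤ w2 δ p a := w2_nonneg hδ0 (by linarith) hp0 hp1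
  set a : Finset ι → ℝ := fun T => ex (w2 δ p) (fun ω => |G1 p s m f T ω|) with ha
  set b : Finset ι → ℝ := fun T => ex (w2 δ p) (fun ω => G2 p s m f T ω ^ 2) with hb
  have ha0 : ∀ T, 0 ≤ a T := fun T => ex_nonneg hw0 fun ω => abs_nonneg _
  have hb0 : ∀ T, 0 ≤ b T := fun T => ex_nonneg hw0 fun ω => sq_nonneg _
  have h𝒯sub : 𝒯 ⊆ powersetCard k (univ : Finset ι) := fun T hT =>
    mem_powersetCard.2 ⟨subset_univ _, h𝒯 T hT⟩
  -- sum of the `a_T`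
  have hsa : ∑ T ∈ powersetCard k (univ : Finset ι), a T ≤ m ^ (2 * k) := by
    simp only [ha]
    rw [← ex_sum]
    calc ex (w2 δ p) (fun ω => ∑ T ∈ powersetCard k (univ : Finset ι), |G1 p s m f T ω|)
        ≤ ex (w2 δ p) (fun _ : ι → Bool × Bool => m ^ (2 * k)) :=
          ex_mono hw0 fun ω => sum_abs_G1_le hp0 hp1 hm f hf k ω
      _ = m ^ (2 * k) := ex_const (w2_sum δ p) _
  -- sum of the `b_T`
  have hsb : ∑ T ∈ powersetCard k (univ : Finset ι), b T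
      ≤ (Real.sqrt (16 / (p * (1 - p))) ^ k * s + 1 / (s ^ 2 * m ^ 4)) * Kf p f := by
    simp only [hb]
    rw [← ex_sum]
    calc ex (w2 δ p) (fun ω => ∑ T ∈ powersetCard k (univ : Finset ι), G2 p s m f T ω ^ 2)
        ≤ ex (w2 δ p) (fun ω => (Real.sqrt (16 / (p * (1 - p))) ^ k * s
            + 1 / (s ^ 2 * m ^ 4)) * ∑ e, InfE p f ω e) :=
          ex_mono hw0 fun ω => sum_G2_sq_le hp0 hp1 hs hm f hf k hk ω
      _ = (Real.sqrt (16 / (p * (1 - p))) ^ k * s + 1 / (s ^ 2 * m ^ 4))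
            * ex (w2 δ p) (fun ω => ∑ e, InfE p f ω e) := ex_const_mul _ _ _
      _ ≤ _ := by
          apply mul_le_mul_of_nonneg_left (ex_sum_InfE_le hδ0 (by linarith) hp0 hp1 f)
          positivity
  -- each `a_T` is small
  have hale : ∀ T ∈ 𝒯, a T ≤ m ^ (2 * k) / N := by
    intro T hT
    obtain ⟨O, hO, hO2⟩ := hsym T hT
    rw [le_div_iff₀ hN]
    have hsubO : O ⊆ powersetCard k (univ : Finset ι) := by
      intro T' hT'
      obtain ⟨ρ, _, rfl⟩ := hO2 T' hT'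
      rw [mem_powersetCard, card_map]
      exact ⟨subset_univ _, h𝒯 T hT⟩
    have hEq : ∀ T' ∈ O, a T' = a T := by
      intro T' hT'
      obtain ⟨ρ, hρ, rfl⟩ := hO2 T' hT'
      exact ex_G1_map δ p s m f ρ hρ T
    calc a T * N ≤ a T * O.card := mul_le_mul_of_nonneg_left hO (ha0 T)
      _ = ∑ T' ∈ O, a T' := by
          rw [sum_congr rfl hEq, sum_const, nsmul_eq_mul]
          ring
      _ ≤ ∑ T' ∈ powersetCard k (univ : Finset ι), a T' :=
          sum_le_sum_of_subset_of_nonneg hsubO fun i _ _ => ha0 i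
      _ ≤ _ := hsa
  -- lower bound
  have hlow : lev p f σ ≤ 8 ^ k * ∑ T ∈ 𝒯, δ ^ T.card *
      (∑ R : Finset ι, if R.card = σ - k then cT p f T R ^ 2 * (1 - δ) ^ (σ - k) else 0) := by
    have h1 : ∀ T ∈ 𝒯, δ ^ T.card * (∑ R : Finset ι,
        if R.card = σ - k then cT p f T R ^ 2 * (1 - δ) ^ (σ - k) else 0)
        = ∑ S : Finset ι, if T ⊆ S then
          (if S.card = σ then fhat p f S ^ 2 * (δ ^ k * (1 - δ) ^ (σ - k)) else 0) else 0 := by
      intro T hT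
      rw [sum_superset T (fun S => if S.card = σ then
        fhat p f S ^ 2 * (δ ^ k * (1 - δ) ^ (σ - k)) else 0), mul_sum, h𝒯 T hT]
      apply sum_congr rfl
      intro R _
      unfold cT
      by_cases hd : Disjoint R T
      · rw [if_pos hd, if_pos hd, card_union_of_disjoint hd, h𝒯 T hT]
        by_cases hR : R.card = σ - k
        · rw [if_pos hR, if_pos (by omega)]
          ring
        · rw [if_neg hR, if_neg (by omega), mul_zero]
      · rw [if_neg hd, if_neg hd]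
        simp
    rw [sum_congr rfl h1, sum_comm, mul_sum]
    unfold lev
    apply sum_le_sum
    intro S _
    by_cases hS : S.card = σ
    · simp only [hS, if_true]
      rw [← sum_filter, sum_const, nsmul_eq_mul]
      have h2 := weight_ge hk hkσ (hcount S hS)
      have h3 : 0 ≤ fhat p f S ^ 2 := sq_nonneg _
      calc fhat p f S ^ 2 = fhat p f S ^ 2 * 1 := by ring
        _ ≤ fhat p f S ^ 2 * (8 ^ k * (((k : ℝ) / (2 * σ)) ^ k * (1 - (k : ℝ) / (2 * σ)) ^ (σ - k)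
              * (𝒯.filter (fun T => T ⊆ S)).card)) := mul_le_mul_of_nonneg_left h2 h3
        _ = _ := by rw [← hδdef]; ring
    · simp [hS]
  -- upper bound
  have hsqrtδ : Real.sqrt (1 / δ) = Real.sqrt (2 * σ / k) := by
    congr 1
    rw [hδdef]
    field_simp
  have hterm : ∀ T ∈ 𝒯, Real.sqrt (a T ^ 3 / δ ^ T.card)
      ≤ a T * (m ^ k * Real.sqrt (1 / N) * Real.sqrt (2 * σ / k) ^ k) := by
    intro T hT
    rw [h𝒯 T hT]
    have h1 : a T ^ 3 / δ ^ k ≤ (a T * (m ^ k * Real.sqrt (1 / N) * Real.sqrt (2 * σ / k) ^ k)) ^ 2 := by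
      rw [← hsqrtδ]
      have h2 : (Real.sqrt (1 / N)) ^ 2 = 1 / N := Real.sq_sqrt (by positivity)
      have h3 : (Real.sqrt (1 / δ)) ^ 2 = 1 / δ := Real.sq_sqrt (by positivity)
      calc a T ^ 3 / δ ^ k = a T ^ 2 * (1 / δ) ^ k * a T := by
            rw [one_div, inv_pow]
            ring
        _ ≤ a T ^ 2 * (1 / δ) ^ k * (m ^ (2 * k) / N) := by
            apply mul_le_mul_of_nonneg_left (hale T hT)
            positivity
        _ = a T ^ 2 * (Real.sqrt (1 / δ) ^ 2) ^ k * (m ^ (2 * k) * Real.sqrt (1 / N) ^ 2) := by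
            rw [h2, h3]
            ring
        _ = _ := by ring
    calc Real.sqrt (a T ^ 3 / δ ^ k)
        ≤ Real.sqrt ((a T * (m ^ k * Real.sqrt (1 / N) * Real.sqrt (2 * σ / k) ^ k)) ^ 2) :=
          Real.sqrt_le_sqrt h1
      _ = _ := Real.sqrt_sq (by have := ha0 T; positivity)
  set A : ℝ := 16 / (p * (1 - p)) with hA
  calc lev p f σ ≤ 8 ^ k * ∑ T ∈ 𝒯, δ ^ T.card *
      (∑ R : Finset ι, if R.card = σ - k then cT p f T R ^ 2 * (1 - δ) ^ (σ - k) else 0) := hlow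
    _ ≤ 8 ^ k * ∑ T ∈ 𝒯, (2 * Real.sqrt A ^ (σ - k) * Real.sqrt (a T ^ 3 / δ ^ T.card)
          + 2 * b T) := by
        apply mul_le_mul_of_nonneg_left _ (by positivity)
        apply sum_le_sum
        intro T _
        exact perT hδ0 hδ1 hp0 hp1 f hf T (σ - k)
    _ ≤ 8 ^ k * ∑ T ∈ 𝒯, (2 * Real.sqrt A ^ (σ - k) *
          (a T * (m ^ k * Real.sqrt (1 / N) * Real.sqrt (2 * σ / k) ^ k)) + 2 * b T) := by
        apply mul_le_mul_of_nonneg_left _ (by positivity)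
        apply sum_le_sum
        intro T hT
        apply add_le_add_left
        exact mul_le_mul_of_nonneg_left (hterm T hT) (by positivity)
    _ = 8 ^ k * ((2 * Real.sqrt A ^ (σ - k) * (m ^ k * Real.sqrt (1 / N)
          * Real.sqrt (2 * σ / k) ^ k)) * (∑ T ∈ 𝒯, a T) + 2 * ∑ T ∈ 𝒯, b T) := by
        congr 1
        rw [sum_add_distrib, mul_sum, mul_sum]
        congr 1
        exact sum_congr rfl fun T _ => by ring
    _ ≤ 8 ^ k * ((2 * Real.sqrt A ^ (σ - k) * (m ^ k * Real.sqrt (1 / N)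
          * Real.sqrt (2 * σ / k) ^ k)) * m ^ (2 * k)
          + 2 * ((Real.sqrt A ^ k * s + 1 / (s ^ 2 * m ^ 4)) * Kf p f)) := by
        apply mul_le_mul_of_nonneg_left _ (by positivity)
        apply add_le_add
        · apply mul_le_mul_of_nonneg_left _ (by positivity)
          exact (sum_le_sum_of_subset_of_nonneg h𝒯sub fun i _ _ => ha0 i).trans hsa
        · apply mul_le_mul_of_nonneg_left _ (by norm_num)
          exact (sum_le_sum_of_subset_of_nonneg h𝒯sub fun i _ _ => hb0 i).trans hsb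
    _ = _ := by ring

end

end Vale.Agent.P063h5
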