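import Vale.Agent.P063_h5.Restrict

/-!
Pointwise estimates and the level inequality for the truncated Fourier coefficients.
-/

namespace Vale.Agent.P063h5

open Finset

set_option linter.unusedSectionVars false

section

variable {ι : Type*} [Fintype ι] [DecidableEq ι]

/-- coordinates of large influence of the restricted function -/
noncomputable def JJ (p s : ℝ) (f : (ι → Bool) → ℝ) (ω : ι → Bool × Bool) : Finset ι :=
  univ.filter (fun e => s ^ 2 ≤ InfE p f ω e)

open Classical in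
/-- main part of the Fourier coefficient -/
noncomputable def G1 (p s m : ℝ) (f : (ι → Bool) → ℝ) (T : Finset ι) (ω : ι → Bool × Bool) : ℝ :=
  if T ⊆ JJ p s f ω ∧ ((JJ p s f ω).card : ℝ) ≤ m ^ 4 then GT p f T ω else 0

open Classical in
/-- exceptional part of the Fourier coefficient -/
noncomputable def G2 (p s m : ℝ) (f : (ι → Bool) → ℝ) (T : Finset ι) (ω : ι → Bool × Bool) : ℝ :=
  if T ⊆ JJ p s f ω ∧ ((JJ p s f ω).card : ℝ) ≤ m ^ 4 then 0 else GT p f T ω

theorem G1_add_G2 (p s m : ℝ) (f : (ι → Bool) → ℝ) (T : Finset ι) (ω : ι → Bool × Bool) :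
    G1 p s m f T ω + G2 p s m f T ω = GT p f T ω := by
  unfold G1 G2
  split_ifs <;> simp

theorem GT_sq_le {p : ℝ} (hp0 : 0 < p) (hp1 : p < 1) (f : (ι → Bool) → ℝ)
    (hf : ∀ x, f x = 0 ∨ f x = 1) (T : Finset ι) (ω : ι → Bool × Bool) : GT p f T ω ^ 2 ≤ 1 := by
  refine le_trans ?_ (restrict_parseval hp0 hp1 f hf ω)
  exact single_le_sum (f := fun T => GT p f T ω ^ 2) (fun i _ => sq_nonneg _) (mem_univ T)

theorem G1_sq_le_abs {p s m : ℝ} (hp0 : 0 < p) (hp1 : p < 1) (f : (ι → Bool) → ℝ)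
    (hf : ∀ x, f x = 0 ∨ f x = 1) (T : Finset ι) (ω : ι → Bool × Bool) :
    G1 p s m f T ω ^ 2 ≤ |G1 p s m f T ω| := by
  have h1 : |G1 p s m f T ω| ≤ 1 := by
    unfold G1
    split_ifs
    · have := GT_sq_le hp0 hp1 f hf T ω
      exact abs_le_of_sq_le_sq (by simpa using this) (by norm_num)
    · simp
  rw [← sq_abs]
  nlinarith [abs_nonneg (G1 p s m f T ω)]

theorem mon_u2_mul_G1 (p s m : ℝ) (f : (ι → Bool) → ℝ) (T : Finset ι) (ω : ι → Bool × Bool) :
    mon u2 T ω * |G1 p s m f T ω| = |G1 p s m f T ω| := by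
  have h1 : mon u2 T ω * G1 p s m f T ω = G1 p s m f T ω := by
    unfold G1
    split_ifs
    · exact mon_u2_mul_GT p f T ω
    · simp
  calc mon u2 T ω * |G1 p s m f T ω| = |mon u2 T ω * G1 p s m f T ω| := by
        rw [abs_mul, abs_of_nonneg (mon_u2_nonneg T ω)]
    _ = _ := by rw [h1]

theorem mon_u2_mul_G2 (p s m : ℝ) (f : (ι → Bool) → ℝ) (T : Finset ι) (ω : ι → Bool × Bool) :
    mon u2 T ω * G2 p s m f T ω ^ 2 = G2 p s m f T ω ^ 2 := by
  have h1 : mon u2 T ω * G2 p s m f T ω = G2 p s m f T ω := by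
    unfold G2
    split_ifs
    · simp
    · exact mon_u2_mul_GT p f T ω
  calc mon u2 T ω * G2 p s m f T ω ^ 2 = (mon u2 T ω * G2 p s m f T ω) * G2 p s m f T ω := by ring
    _ = G2 p s m f T ω * G2 p s m f T ω := by rw [h1]
    _ = _ := by ring

/-- pointwise `ℓ^1` bound -/
theorem sum_abs_G1_le {p s m : ℝ} (hp0 : 0 < p) (hp1 : p < 1) (hm : 0 < m) (f : (ι → Bool) → ℝ)
    (hf : ∀ x, f x = 0 ∨ f x = 1) (k : ℕ) (ω : ι → Bool × Bool) :
    ∑ T ∈ powersetCard k (univ : Finset ι), |G1 p s m f T ω| ≤ m ^ (2 * k) := by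
  by_cases h : ((JJ p s f ω).card : ℝ) ≤ m ^ 4
  · have h1 : ∑ T ∈ powersetCard k (univ : Finset ι), |G1 p s m f T ω|
        = ∑ T ∈ powersetCard k (JJ p s f ω), |GT p f T ω| := by
      symm
      have hsub : powersetCard k (JJ p s f ω) ⊆ powersetCard k (univ : Finset ι) :=
        powersetCard_mono (subset_univ _)
      rw [← sum_subset hsub]
      · apply sum_congr rfl
        intro T hT
        unfold G1
        rw [if_pos ⟨(mem_powersetCard.1 hT).1, h⟩]
      · intro T hT hT'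
        unfold G1
        rw [if_neg, abs_zero]
        rintro ⟨h2, _⟩
        exact hT' (mem_powersetCard.2 ⟨h2, (mem_powersetCard.1 hT).2⟩)
    rw [h1]
    have h2 : (∑ T ∈ powersetCard k (JJ p s f ω), |GT p f T ω|) ^ 2 ≤ (m ^ (2 * k)) ^ 2 := by
      calc (∑ T ∈ powersetCard k (JJ p s f ω), |GT p f T ω|) ^ 2
          ≤ ((powersetCard k (JJ p s f ω)).card : ℝ) *
            ∑ T ∈ powersetCard k (JJ p s f ω), |GT p f T ω| ^ 2 := sq_sum_le_card_mul_sum_sq
        _ ≤ ((powersetCard k (JJ p s f ω)).card : ℝ) * 1 := by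
            apply mul_le_mul_of_nonneg_left _ (Nat.cast_nonneg _)
            refine le_trans ?_ (restrict_parseval hp0 hp1 f hf ω)
            simp_rw [sq_abs]
            exact sum_le_sum_of_subset_of_nonneg (subset_univ _) fun i _ _ => sq_nonneg _
        _ ≤ ((JJ p s f ω).card : ℝ) ^ k := by
            rw [mul_one, card_powersetCard]
            exact_mod_cast Nat.choose_le_pow _ _
        _ ≤ (m ^ 4) ^ k := pow_le_pow_left₀ (Nat.cast_nonneg _) h k
        _ = (m ^ (2 * k)) ^ 2 := by ring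
    exact (le_abs_self _).trans (abs_le_of_sq_le_sq h2 (by positivity))
  · have h1 : ∑ T ∈ powersetCard k (univ : Finset ι), |G1 p s m f T ω| = 0 := by
      apply sum_eq_zero
      intro T _
      unfold G1
      rw [if_neg (fun h' => h h'.2), abs_zero]
    rw [h1]
    positivity

/-- pointwise bound of the exceptional part -/
theorem sum_G2_sq_le {p s m : ℝ} (hp0 : 0 < p) (hp1 : p < 1) (hs : 0 < s) (hm : 0 < m)
    (f : (ι → Bool) → ℝ) (hf : ∀ x, f x = 0 ∨ f x = 1) (k : ℕ) (hk : 1 ≤ k)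
    (ω : ι → Bool × Bool) :
    ∑ T ∈ powersetCard k (univ : Finset ι), G2 p s m f T ω ^ 2
      ≤ (Real.sqrt (16 / (p * (1 - p))) ^ k * s + 1 / (s ^ 2 * m ^ 4)) * ∑ e, InfE p f ω e := by
  have hq : 0 < 1 - p := by linarith
  have hpq : 0 < p * (1 - p) := by positivity
  have hI0 : 0 ≤ ∑ e, InfE p f ω e := sum_nonneg fun e _ => InfE_nonneg p f ω e
  set A : ℝ := 16 / (p * (1 - p)) with hA
  have hA0 : 0 < A := by positivity
  by_cases h : ((JJ p s f ω).card : ℝ) ≤ m ^ 4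
  · have h1 : ∑ T ∈ powersetCard k (univ : Finset ι), G2 p s m f T ω ^ 2
        ≤ ∑ e ∈ univ \ JJ p s f ω,
          ∑ T : Finset ι, (if e ∈ T then (if T.card = k then GT p f T ω ^ 2 else 0) else 0) := by
      rw [sum_comm]
      calc ∑ T ∈ powersetCard k (univ : Finset ι), G2 p s m f T ω ^ 2
          ≤ ∑ T ∈ powersetCard k (univ : Finset ι), ∑ e ∈ univ \ JJ p s f ω,
            (if e ∈ T then (if T.card = k then GT p f T ω ^ 2 else 0) else 0) := by
            apply sum_le_sum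
            intro T hT
            have hTk := (mem_powersetCard.1 hT).2
            unfold G2
            split_ifs with h2
            · rw [zero_pow two_ne_zero]
              apply sum_nonneg
              intro e _
              split_ifs <;> positivity
            · have h3 : ¬ (T ⊆ JJ p s f ω) := fun h' => h2 ⟨h', h⟩
              obtain ⟨e, heT, heJ⟩ := not_subset.1 h3
              have h4 := single_le_sum (f := fun e => if e ∈ T then
                (if T.card = k then GT p f T ω ^ 2 else 0) else 0) (s := univ \ JJ p s f ω)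
                (fun e _ => by split_ifs <;> positivity) (mem_sdiff.2 ⟨mem_univ e, heJ⟩)
              rw [if_pos heT, if_pos hTk] at h4
              exact h4
        _ ≤ ∑ T : Finset ι, ∑ e ∈ univ \ JJ p s f ω,
            (if e ∈ T then (if T.card = k then GT p f T ω ^ 2 else 0) else 0) := by
            apply sum_le_sum_of_subset_of_nonneg (subset_univ _)
            intro T _ _
            apply sum_nonneg
            intro e _
            split_ifs <;> positivity
    have h2 : ∀ e ∈ univ \ JJ p s f ω,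
        ∑ T : Finset ι, (if e ∈ T then (if T.card = k then GT p f T ω ^ 2 else 0) else 0)
          ≤ Real.sqrt A ^ k * s * InfE p f ω e := by
      intro e he
      have he' : InfE p f ω e < s ^ 2 := by
        by_contra hcon
        push Not at hcon
        exact (mem_sdiff.1 he).2 (mem_filter.2 ⟨mem_univ e, hcon⟩)
      have hfr := friedgut_step hp0 hp1 (fun x => f (mrg ω x)) (fun x => hf _)
        (fun T => GT p f T ω) (fun x => restrict_expansion hp0 hp1 f ω x) e k hk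
      set L := ∑ T : Finset ι, (if e ∈ T then (if T.card = k then GT p f T ω ^ 2 else 0) else 0)
        with hL
      have hIe : (∑ T : Finset ι, if e ∈ T then GT p f T ω ^ 2 else 0) = InfE p f ω e := rfl
      rw [hIe] at hfr
      have hIe0 : 0 ≤ InfE p f ω e := InfE_nonneg p f ω e
      have h5 : L ^ 2 ≤ (Real.sqrt A ^ k * s * InfE p f ω e) ^ 2 := by
        calc L ^ 2 ≤ A ^ k * InfE p f ω e ^ 3 := hfr
          _ = A ^ k * InfE p f ω e ^ 2 * InfE p f ω e := by ring
          _ ≤ A ^ k * InfE p f ω e ^ 2 * s ^ 2 :=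
              mul_le_mul_of_nonneg_left he'.le (by positivity)
          _ = (Real.sqrt A ^ 2) ^ k * InfE p f ω e ^ 2 * s ^ 2 := by rw [Real.sq_sqrt hA0.le]
          _ = (Real.sqrt A ^ k * s * InfE p f ω e) ^ 2 := by ring
      exact (le_abs_self _).trans (abs_le_of_sq_le_sq h5 (by positivity))
    calc ∑ T ∈ powersetCard k (univ : Finset ι), G2 p s m f T ω ^ 2
        ≤ ∑ e ∈ univ \ JJ p s f ω,
          ∑ T : Finset ι, (if e ∈ T then (if T.card = k then GT p f T ω ^ 2 else 0) else 0) := h1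
      _ ≤ ∑ e ∈ univ \ JJ p s f ω, Real.sqrt A ^ k * s * InfE p f ω e := sum_le_sum h2
      _ ≤ ∑ e, Real.sqrt A ^ k * s * InfE p f ω e :=
          sum_le_sum_of_subset_of_nonneg (subset_univ _) fun e _ _ => by
            have := InfE_nonneg p f ω e
            positivity
      _ = Real.sqrt A ^ k * s * ∑ e, InfE p f ω e := by rw [mul_sum]
      _ ≤ _ := by
          apply mul_le_mul_of_nonneg_right _ hI0
          have : 0 ≤ 1 / (s ^ 2 * m ^ 4) := by positivity
          linarith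
  · push Not at h
    have h1 : ∑ T ∈ powersetCard k (univ : Finset ι), G2 p s m f T ω ^ 2 ≤ 1 := by
      refine le_trans ?_ (restrict_parseval hp0 hp1 f hf ω)
      calc ∑ T ∈ powersetCard k (univ : Finset ι), G2 p s m f T ω ^ 2
          = ∑ T ∈ powersetCard k (univ : Finset ι), GT p f T ω ^ 2 := by
            apply sum_congr rfl
            intro T _
            unfold G2
            rw [if_neg (fun h' => absurd h'.2 (not_le.2 h))]
        _ ≤ _ := sum_le_sum_of_subset_of_nonneg (subset_univ _) fun i _ _ => sq_nonneg _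
    have h2 : s ^ 2 * m ^ 4 ≤ ∑ e, InfE p f ω e := by
      calc s ^ 2 * m ^ 4 ≤ s ^ 2 * (JJ p s f ω).card :=
            mul_le_mul_of_nonneg_left h.le (by positivity)
        _ = ∑ e ∈ JJ p s f ω, s ^ 2 := by rw [sum_const, nsmul_eq_mul]; ring
        _ ≤ ∑ e ∈ JJ p s f ω, InfE p f ω e := sum_le_sum fun e he => (mem_filter.1 he).2
        _ ≤ _ := sum_le_sum_of_subset_of_nonneg (subset_univ _) fun e _ _ => InfE_nonneg p f ω e
    have hsm : 0 < s ^ 2 * m ^ 4 := by positivity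
    calc ∑ T ∈ powersetCard k (univ : Finset ι), G2 p s m f T ω ^ 2 ≤ 1 := h1
      _ = 1 / (s ^ 2 * m ^ 4) * (s ^ 2 * m ^ 4) := by field_simp
      _ ≤ 1 / (s ^ 2 * m ^ 4) * ∑ e, InfE p f ω e :=
          mul_le_mul_of_nonneg_left h2 (by positivity)
      _ ≤ _ := by
          apply mul_le_mul_of_nonneg_right _ hI0
          have : 0 ≤ Real.sqrt A ^ k * s := by positivity
          linarith

theorem combine {α β Q X Y A : ℝ} (hα0 : 0 ≤ α) (hβ0 : 0 ≤ β) (hQ0 : 0 ≤ Q) (hA0 : 0 < A) (d : ℕ)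
    (hXY : Q = X + Y) (hX4 : X ^ 4 ≤ α ^ 3 * A ^ d * Q ^ 2) (hY2 : Y ^ 2 ≤ β * Q) :
    Q ≤ 2 * (Real.sqrt (α ^ 3) * Real.sqrt A ^ d + β) := by
  have hs1 : Real.sqrt (α ^ 3) ^ 2 = α ^ 3 := Real.sq_sqrt (pow_nonneg hα0 3)
  have hs2 : Real.sqrt A ^ 2 = A := Real.sq_sqrt hA0.le
  have hu0 : 0 ≤ Real.sqrt (α ^ 3) := Real.sqrt_nonneg _
  have hv0 : 0 ≤ Real.sqrt A := Real.sqrt_nonneg _
  generalize Real.sqrt (α ^ 3) = u at hs1 hu0 ⊢
  generalize Real.sqrt A = v at hs2 hv0 ⊢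
  have hγ0 : 0 ≤ u * v ^ d := by positivity
  have hγ2 : (u * v ^ d) ^ 2 = α ^ 3 * A ^ d := by
    rw [← hs1, ← hs2]
    ring
  generalize u * v ^ d = γ at hγ0 hγ2 ⊢
  have hX2 : X ^ 2 ≤ γ * Q := by
    have h1 : (X ^ 2) ^ 2 ≤ (γ * Q) ^ 2 := by
      calc (X ^ 2) ^ 2 = X ^ 4 := by ring
        _ ≤ α ^ 3 * A ^ d * Q ^ 2 := hX4
        _ = (γ * Q) ^ 2 := by rw [mul_pow, hγ2]
    exact (le_abs_self _).trans (abs_le_of_sq_le_sq h1 (by positivity))
  rcases hQ0.eq_or_lt with h | h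
  · rw [← h]
    positivity
  · have h1 : Q * Q ≤ 2 * (γ + β) * Q := by
      have h2 : Q * Q = (X + Y) ^ 2 := by
        rw [← hXY]
        ring
      have h3 : (X + Y) ^ 2 ≤ 2 * X ^ 2 + 2 * Y ^ 2 := by nlinarith [sq_nonneg (X - Y)]
      linarith
    exact le_of_mul_le_mul_right h1 h

/-- the level inequality applied to `G_T` -/
theorem perT {δ p s m : ℝ} (hδ0 : 0 < δ) (hδ1 : δ ≤ 1 / 2) (hp0 : 0 < p) (hp1 : p < 1)
    (f : (ι → Bool) → ℝ) (hf : ∀ x, f x = 0 ∨ f x = 1) (T : Finset ι) (d : ℕ) :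
    δ ^ T.card * (∑ R : Finset ι, if R.card = d then cT p f T R ^ 2 * (1 - δ) ^ d else 0) ≤
      2 * Real.sqrt (16 / (p * (1 - p))) ^ d *
        Real.sqrt (ex (w2 δ p) (fun ω => |G1 p s m f T ω|) ^ 3 / δ ^ T.card)
      + 2 * ex (w2 δ p) (fun ω => G2 p s m f T ω ^ 2) := by
  have hq : 0 < 1 - p := by linarith
  have hpq : 0 < p * (1 - p) := by positivity
  have hpq4 : p * (1 - p) ≤ 1 / 4 := by nlinarith [sq_nonneg (p - 1 / 2)]
  set A : ℝ := 16 / (p * (1 - p)) with hA
  have hA64 : 64 ≤ A := by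
    rw [hA, le_div_iff₀ hpq]
    linarith
  have hA0 : 0 < A := by positivity
  have hw0 : ∀ a, 0 ≤ w2 δ p a := w2_nonneg hδ0 (by linarith) hp0 hp1
  set k := T.card with hk
  set c' : Finset ι → ℝ := fun R => if R.card = d then cT p f T R else 0 with hc'
  set α : ℝ := ex (w2 δ p) (fun ω => |G1 p s m f T (fill T ω)|) with hα
  set β : ℝ := ex (w2 δ p) (fun ω => G2 p s m f T (fill T ω) ^ 2) with hβ
  have ha : ex (w2 δ p) (fun ω => |G1 p s m f T ω|) = δ ^ k * α :=
    ex_eq_fill δ p T _ (mon_u2_mul_G1 p s m f T)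
  have hb : ex (w2 δ p) (fun ω => G2 p s m f T ω ^ 2) = δ ^ k * β :=
    ex_eq_fill δ p T _ (mon_u2_mul_G2 p s m f T)
  have hα0 : 0 ≤ α := ex_nonneg hw0 fun ω => abs_nonneg _
  have hβ0 : 0 ≤ β := ex_nonneg hw0 fun ω => sq_nonneg _
  set Q : ℝ := ex (w2 δ p) (fun ω => poly (y2 p) c' ω ^ 2) with hQ
  have hQ0 : 0 ≤ Q := ex_nonneg hw0 fun ω => sq_nonneg _
  have hQval : Q = ∑ R : Finset ι, if R.card = d then cT p f T R ^ 2 * (1 - δ) ^ d else 0 := by
    have e1 : ∀ ω, poly (y2 p) c' ω ^ 2 = poly (y2 p) c' ω * poly (y2 p) c' ω := fun ω => by ring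
    rw [hQ, ex_congr _ e1, ex_poly_mul (w2_sum δ p) (w2_y1 hp0 hp1) (w2_y2 hp0 hp1)]
    apply sum_congr rfl
    intro R _
    simp only [hc']
    split_ifs with h
    · rw [h]
      ring
    · simp
  set X : ℝ := ex (w2 δ p) (fun ω => G1 p s m f T (fill T ω) * poly (y2 p) c' ω) with hX
  set Y : ℝ := ex (w2 δ p) (fun ω => G2 p s m f T (fill T ω) * poly (y2 p) c' ω) with hY
  have hXY : Q = X + Y := by
    rw [hX, hY, ← ex_add]
    have e1 : ∀ ω, G1 p s m f T (fill T ω) * poly (y2 p) c' ω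
        + G2 p s m f T (fill T ω) * poly (y2 p) c' ω
        = poly (y2 p) (cT p f T) ω * poly (y2 p) c' ω := by
      intro ω
      rw [← add_mul, G1_add_G2, GT_fill]
    have e2 : ∀ ω, poly (y2 p) c' ω ^ 2 = poly (y2 p) c' ω * poly (y2 p) c' ω := fun ω => by ring
    rw [hQ, ex_congr _ e1, ex_congr _ e2, ex_poly_mul (w2_sum δ p) (w2_y1 hp0 hp1)
      (w2_y2 hp0 hp1), ex_poly_mul (w2_sum δ p) (w2_y1 hp0 hp1) (w2_y2 hp0 hp1)]
    apply sum_congr rfl
    intro R _
    simp only [hc']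
    split_ifs <;> ring
  have hX4 : X ^ 4 ≤ α ^ 3 * A ^ d * Q ^ 2 := by
    have h1 := level_ineq hw0 (w2_sum δ p) (w2_y1 hp0 hp1) (w2_y2 hp0 hp1)
      (by linarith) (A := A) (by linarith) (w2_y4 hδ0 hδ1 hp0 hp1) d c' (fun S hS => by
        simp only [hc']
        rw [if_neg (by omega)]) (fun ω => G1 p s m f T (fill T ω))
    rw [← hQ] at h1
    have h2 : ex (w2 δ p) (fun ω => G1 p s m f T (fill T ω) ^ 2) ≤ α :=
      ex_mono hw0 fun ω => G1_sq_le_abs hp0 hp1 f hf T _
    calc X ^ 4 ≤ α ^ 2 * ex (w2 δ p) (fun ω => G1 p s m f T (fill T ω) ^ 2) * (A ^ d * Q ^ 2) := h1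
      _ ≤ α ^ 2 * α * (A ^ d * Q ^ 2) := by
          apply mul_le_mul_of_nonneg_right _ (by positivity)
          exact mul_le_mul_of_nonneg_left h2 (sq_nonneg _)
      _ = _ := by ring
  have hY2 : Y ^ 2 ≤ β * Q := ex_mul_sq_le hw0 _ _
  have hQle := combine hα0 hβ0 hQ0 hA0 d hXY hX4 hY2
  rw [← hQval, ha, hb]
  have hkey : δ ^ k * Real.sqrt (α ^ 3) = Real.sqrt ((δ ^ k * α) ^ 3 / δ ^ k) := by
    rw [show (δ ^ k * α) ^ 3 / δ ^ k = (δ ^ k) ^ 2 * α ^ 3 by
      field_simp, Real.sqrt_mul (by positivity), Real.sqrt_sq (by positivity)]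
  rw [← hkey]
  calc δ ^ k * Q ≤ δ ^ k * (2 * (Real.sqrt (α ^ 3) * Real.sqrt A ^ d + β)) :=
        mul_le_mul_of_nonneg_left hQle (by positivity)
    _ = _ := by ring

end

end Vale.Agent.P063h5
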