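import Mathlib

/-!
Basic definitions for the threshold width of properties of `r`-uniform hypergraphs.
-/

namespace Vale.Agent.P063h5

open Finset

/-- An edge of the complete `r`-uniform hypergraph on `[n]`: an `r`-subset of the vertex set. -/
abbrev Edge (n r : ℕ) := {e : Finset (Fin n) // e.card = r}

/-- The action of a permutation of the vertices on the edges. -/
def permEdge {n r : ℕ} (π : Equiv.Perm (Fin n)) (e : Edge n r) : Edge n r :=
  ⟨e.1.map π.toEmbedding, by rw [card_map]; exact e.2⟩

/-- An `r`-uniform hypergraph on `[n]`, as a point of `{0,1}^(n choose r)`: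
`x e = true` means that the edge `e` is present. -/
abbrev Hyp (n r : ℕ) := Edge n r → Bool

/-- `P` is a hypergraph property: invariant under all permutations of the vertices. -/
def IsInvariant {n r : ℕ} (P : Set (Hyp n r)) : Prop :=
  ∀ (π : Equiv.Perm (Fin n)) (x : Hyp n r), x ∈ P → (fun e => x (permEdge π e)) ∈ P

/-- Adding edges preserves membership. -/
def IsIncreasing {n r : ℕ} (P : Set (Hyp n r)) : Prop :=
  ∀ x y : Hyp n r, (∀ e, x e = true → y e = true) → x ∈ P → y ∈ P

/-- Neither empty nor everything. -/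
def IsNontrivial {n r : ℕ} (P : Set (Hyp n r)) : Prop :=
  P ≠ ∅ ∧ P ≠ Set.univ

open Classical in
/-- The probability that the random hypergraph with edge probability `p` is in `P`. -/
noncomputable def mu {n r : ℕ} (p : ℝ) (P : Set (Hyp n r)) : ℝ :=
  ∑ x : Hyp n r, if x ∈ P then ∏ e, (if x e = true then p else 1 - p) else 0

/-- `p_a(P) = inf {p ∈ [0,1] : μ_p(P) ≥ a}`. -/
noncomputable def pLevel {n r : ℕ} (P : Set (Hyp n r)) (a : ℝ) : ℝ :=
  sInf {p : ℝ | 0 ≤ p ∧ p ≤ 1 ∧ a ≤ mu p P}

/-- The threshold width `w_ε(P) = p_{1-ε}(P) - p_ε(P)`. -/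
noncomputable def width {n r : ℕ} (P : Set (Hyp n r)) (ε : ℝ) : ℝ :=
  pLevel P (1 - ε) - pLevel P ε

/-! ### Product spaces -/

section Prod

variable {ι Ω : Type*} [Fintype ι] [DecidableEq ι] [Fintype Ω]

/-- Expectation over the product of copies of a finite space with weights `w`. -/
noncomputable def ex (w : Ω → ℝ) (F : (ι → Ω) → ℝ) : ℝ :=
  ∑ ω : ι → Ω, (∏ e, w (ω e)) * F ω

end Prod

/-- The weights of a `p`-biased bit. -/
noncomputable def wb (p : ℝ) : Bool → ℝ := fun b => if b = true then p else 1 - p

/-- The discrete derivative in direction `e`. -/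
noncomputable def De {ι : Type*} [DecidableEq ι] (f : (ι → Bool) → ℝ) (e : ι) (x : ι → Bool) : ℝ :=
  f (Function.update x e true) - f (Function.update x e false)

/-- The total influence. -/
noncomputable def totInf {ι : Type*} [Fintype ι] [DecidableEq ι] (p : ℝ) (f : (ι → Bool) → ℝ) : ℝ :=
  ∑ e, ex (wb p) (fun x => (De f e x) ^ 2)

open Classical in
/-- Indicator function of a family. -/
noncomputable def ind {ι : Type*} (P : Set (ι → Bool)) (x : ι → Bool) : ℝ := if x ∈ P then 1 else 0

/-- The vertices covered by a set of edges. -/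
def verts {n r : ℕ} (T : Finset (Edge n r)) : Finset (Fin n) := T.biUnion (fun e => e.1)

end Vale.Agent.P063h5
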