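import Vale.Agent.P063_h5.Defs

/-!
Module NUM: the real-analysis end game.
-/

namespace Vale.Agent.P063h5

open Finset Filter

theorem num_evt_aux (C : ℝ) (n : ℕ) (b : ℝ) (hb : 0 < b) :
    ∀ᶠ l : ℝ in atTop, C * l ^ n ≤ Real.exp (b * l) := by
  have h := (tendsto_exp_mul_div_rpow_atTop (n : ℝ) b hb).eventually_ge_atTop C
  filter_upwards [h, eventually_gt_atTop (0 : ℝ)] with l h1 h2
  rw [Real.rpow_natCast, le_div_iff₀ (pow_pos h2 n)] at h1
  exact h1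

theorem num_evt (r : ℕ) (v : ℝ) (hv : 0 < v) : ∃ l₀ : ℝ, ∀ l : ℝ, l₀ ≤ l →
    1 ≤ l ∧ r * l ^ 2 ≤ Real.exp l ∧ 8 * Real.sqrt (2 * r) * l ≤ Real.exp (l / 8) ∧
      12 * l ^ 4 ≤ v * Real.exp (l / 64) ∧ 16 * l ^ 2 ≤ v * Real.exp (l / 1000) := by
  have h1 := num_evt_aux (r : ℝ) 2 1 one_pos
  have h2 := num_evt_aux (8 * Real.sqrt (2 * r)) 1 (1 / 8) (by norm_num)
  have h3 := num_evt_aux (12 / v) 4 (1 / 64) (by norm_num)
  have h4 := num_evt_aux (16 / v) 2 (1 / 1000) (by norm_num)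
  obtain ⟨l₀, hl₀⟩ := eventually_atTop.1
    (h1.and (h2.and (h3.and (h4.and (eventually_ge_atTop (1 : ℝ))))))
  refine ⟨l₀, fun l hl => ?_⟩
  obtain ⟨a1, a2, a3, a4, a5⟩ := hl₀ l hl
  refine ⟨a5, by simpa using a1, ?_, ?_, ?_⟩
  · have : l / 8 = 1 / 8 * l := by ring
    rw [this]; simpa using a2
  · have : l / 64 = 1 / 64 * l := by ring
    rw [this]
    rw [div_mul_eq_mul_div, div_le_iff₀ hv] at a3
    linarith
  · have : l / 1000 = 1 / 1000 * l := by ring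
    rw [this]
    rw [div_mul_eq_mul_div, div_le_iff₀ hv] at a4
    linarith

/-- bounds for `L = log (16/t)` -/
theorem num_L {t : ℝ} (ht : 0 < t) (ht4 : t ≤ 1 / 4) :
    ∃ u : ℝ, 0 < u ∧ u ≤ 1 ∧ u ^ 4 = t ∧ u ^ 2 ≤ 1 / 2 ∧ Real.log (16 / t) * u ≤ 8 := by
  refine ⟨t ^ ((1 : ℝ) / 4), by positivity, ?_, ?_, ?_, ?_⟩
  · exact Real.rpow_le_one ht.le (by linarith) (by norm_num)
  · rw [← Real.rpow_natCast, ← Real.rpow_mul ht.le]; norm_num
  · have h : (t ^ ((1 : ℝ) / 4)) ^ 2 = Real.sqrt t := by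
      rw [← Real.rpow_natCast, ← Real.rpow_mul ht.le, Real.sqrt_eq_rpow]; norm_num
    rw [h]
    rw [show (1 : ℝ) / 2 = Real.sqrt ((1 / 2) ^ 2) by rw [Real.sqrt_sq]; norm_num]
    apply Real.sqrt_le_sqrt
    norm_num; linarith
  · have hA : 0 ≤ 16 / t := by positivity
    have h := Real.log_le_rpow_div hA (show (0 : ℝ) < 1 / 4 by norm_num)
    have h16 : (16 : ℝ) ^ ((1 : ℝ) / 4) = 2 := by
      rw [show (16 : ℝ) = 2 ^ (4 : ℝ) by norm_num, ← Real.rpow_mul (by norm_num)]; norm_num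
    rw [Real.div_rpow (by norm_num) ht.le, h16] at h
    have hu : 0 < t ^ ((1 : ℝ) / 4) := by positivity
    calc Real.log (16 / t) * t ^ ((1 : ℝ) / 4)
        ≤ (2 / t ^ ((1 : ℝ) / 4) / (1 / 4)) * t ^ ((1 : ℝ) / 4) :=
          mul_le_mul_of_nonneg_right h hu.le
      _ = 8 := by field_simp; norm_num


/-- the constant -/
noncomputable def numC (r : ℕ) : ℝ := 1 / (8 * (128 * r) ^ r)

theorem numC_pos {r : ℕ} (hr : 2 ≤ r) : 0 < numC r := by
  have hr' : (0 : ℝ) < r := by exact_mod_cast (by omega : 0 < r)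
  unfold numC; positivity

theorem numC_le {r : ℕ} (hr : 2 ≤ r) : numC r ≤ 1 / 512000 := by
  have hr' : (2 : ℝ) ≤ r := by exact_mod_cast hr
  have h : (65536 : ℝ) ≤ (128 * r) ^ r := by
    calc (65536 : ℝ) = 256 ^ 2 := by norm_num
      _ ≤ (128 * r) ^ 2 := by gcongr; linarith
      _ ≤ (128 * r) ^ r := by
          apply pow_le_pow_right₀ _ hr
          linarith
  unfold numC
  apply one_div_le_one_div_of_le (by norm_num)
  linarith

/-- `y = l ^ (r/(r-1))` -/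
theorem num_y {r : ℕ} (hr : 2 ≤ r) {l : ℝ} (hl : 1 ≤ l) :
    (l ^ ((r : ℝ) / (r - 1))) ^ (r - 1) = l ^ r ∧ l ^ ((r : ℝ) / (r - 1)) ≤ l ^ 2 ∧
      1 ≤ l ^ ((r : ℝ) / (r - 1)) := by
  have hr' : (2 : ℝ) ≤ r := by exact_mod_cast hr
  have hl0 : 0 ≤ l := by linarith
  have hne : (r : ℝ) - 1 ≠ 0 := by linarith
  have hpos : 0 < (r : ℝ) - 1 := by linarith
  refine ⟨?_, ?_, ?_⟩
  · rw [← Real.rpow_natCast, ← Real.rpow_mul hl0, Nat.cast_sub (by omega), Nat.cast_one,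
      div_mul_cancel₀ _ hne, Real.rpow_natCast]
  · rw [← Real.rpow_natCast l 2]
    apply Real.rpow_le_rpow_of_exponent_le hl
    rw [div_le_iff₀ hpos]
    push_cast
    linarith
  · apply Real.one_le_rpow hl
    positivity

/-- the combinatorial conditions on `k` -/
theorem num_k {r : ℕ} (hr : 2 ≤ r) {l t u L : ℝ} (hl : 1 ≤ l) (ht : 0 < t)
    (hu : 0 < u) (hu1 : u ≤ 1) (hu4 : u ^ 4 = t) (hu2 : u ^ 2 ≤ 1 / 2) (hL0 : 4 ≤ L)
    (hLu : L * u ≤ 8) (hLl : L ≤ l / 1000) {σ : ℕ} (hσ1 : 1 ≤ σ)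
    (hσ : (σ : ℝ) ≤ numC r * t * l ^ ((r : ℝ) / (r - 1))) :
    ∃ k : ℕ, 1 ≤ k ∧ k ≤ σ ∧ 2 * (r * (k - 1)) ^ r ≤ σ ∧ 16 * σ * L ≤ k * l ∧
      k * L ≤ l / 500 ∧ (σ : ℝ) ≤ l ^ 2 := by
  have hr' : (2 : ℝ) ≤ r := by exact_mod_cast hr
  have hl0 : 0 < l := by linarith
  obtain ⟨hy1, hy2, hy3⟩ := num_y hr hl
  set y : ℝ := l ^ ((r : ℝ) / (r - 1)) with hy
  have hC := numC_pos hr
  have hC' := numC_le hr
  have hσ1' : (1 : ℝ) ≤ σ := by exact_mod_cast hσ1
  have ht1 : t ≤ 1 := by rw [← hu4]; exact pow_le_one₀ hu.le hu1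
  have hσl : (σ : ℝ) ≤ l ^ 2 := by
    calc (σ : ℝ) ≤ numC r * t * y := hσ
      _ ≤ 1 * 1 * l ^ 2 := by gcongr; linarith
      _ = l ^ 2 := by ring
  set z : ℝ := 16 * σ * L / l with hz
  have hz0 : 0 < z := by positivity
  refine ⟨⌈z⌉₊, ?_, ?_, ?_, ?_, ?_, hσl⟩
  · exact Nat.one_le_iff_ne_zero.2 (Nat.ceil_pos.2 hz0).ne'
  · apply Nat.ceil_le.2
    rw [hz, div_le_iff₀ hl0]
    nlinarith
  · -- main inequality
    have hk1 : ((⌈z⌉₊ - 1 : ℕ) : ℝ) ≤ z := by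
      have h1 : 1 ≤ ⌈z⌉₊ := Nat.one_le_iff_ne_zero.2 (Nat.ceil_pos.2 hz0).ne'
      rw [Nat.cast_sub h1, Nat.cast_one]
      have := Nat.ceil_lt_add_one hz0.le
      linarith
    have hmain : 2 * ((r : ℝ) * z) ^ r ≤ σ := by
      have e1 : (σ : ℝ) ^ (r - 1) ≤ (numC r * t) ^ (r - 1) * l ^ r := by
        rw [← hy1, ← mul_pow]
        exact pow_le_pow_left₀ (by positivity) hσ _
      have e2 : t ^ (r - 1) * L ^ r ≤ 8 ^ r := by
        have e3 : t ^ (r - 1) ≤ u ^ r := by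
          rw [← hu4, ← pow_mul]
          exact pow_le_pow_of_le_one hu.le hu1 (by omega)
        calc t ^ (r - 1) * L ^ r ≤ u ^ r * L ^ r := by gcongr
          _ = (L * u) ^ r := by rw [mul_pow]; ring
          _ ≤ 8 ^ r := pow_le_pow_left₀ (by positivity) hLu _
      have e4 : numC r ^ (r - 1) ≤ numC r := by
        calc numC r ^ (r - 1) ≤ numC r ^ 1 :=
              pow_le_pow_of_le_one hC.le (by linarith) (by omega)
          _ = numC r := pow_one _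
      have e5 : (128 * (r : ℝ)) ^ r * numC r = 1 / 8 := by
        unfold numC
        have : (128 * (r : ℝ)) ^ r ≠ 0 := by positivity
        field_simp
      have e6 : (r * z) ^ r * l ^ r = (16 * r) ^ r * L ^ r * (σ * σ ^ (r - 1)) := by
        have : (σ : ℝ) * σ ^ (r - 1) = σ ^ r := by
          rw [← pow_succ']; congr 1; omega
        rw [this, ← mul_pow, ← mul_pow, ← mul_pow]
        congr 1
        rw [hz]; field_simp
      have hlr : 0 < l ^ r := by positivity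
      refine le_of_mul_le_mul_right ?_ hlr
      calc 2 * ((r : ℝ) * z) ^ r * l ^ r = 2 * ((r * z) ^ r * l ^ r) := by ring
        _ = 2 * (16 * r) ^ r * L ^ r * σ * σ ^ (r - 1) := by rw [e6]; ring
        _ ≤ 2 * (16 * r) ^ r * L ^ r * σ * ((numC r * t) ^ (r - 1) * l ^ r) := by gcongr
        _ = 2 * (16 * r) ^ r * σ * numC r ^ (r - 1) * (t ^ (r - 1) * L ^ r) * l ^ r := by
            rw [mul_pow]; ring
        _ ≤ 2 * (16 * r) ^ r * σ * numC r * 8 ^ r * l ^ r := by gcongr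
        _ = 2 * σ * (((128 : ℝ) * r) ^ r * numC r) * l ^ r := by
            rw [show (128 : ℝ) * r = (16 * r) * 8 by ring, mul_pow (16 * (r : ℝ)) 8]; ring
        _ = (1 / 4) * σ * l ^ r := by rw [e5]; ring
        _ ≤ σ * l ^ r := by nlinarith [mul_pos (by linarith : (0 : ℝ) < σ) hlr]
    have : ((2 * (r * (⌈z⌉₊ - 1)) ^ r : ℕ) : ℝ) ≤ σ := by
      push_cast
      calc 2 * ((r : ℝ) * ((⌈z⌉₊ - 1 : ℕ) : ℝ)) ^ r ≤ 2 * ((r : ℝ) * z) ^ r := by gcongr
        _ ≤ σ := hmain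
    exact_mod_cast this
  · have := Nat.le_ceil z
    calc 16 * σ * L = z * l := by rw [hz]; field_simp
      _ ≤ ⌈z⌉₊ * l := by gcongr
  · have h1 : (⌈z⌉₊ : ℝ) ≤ z + 1 := (Nat.ceil_lt_add_one hz0.le).le
    have h2 : t * L ^ 2 ≤ 32 := by
      have : t * L ^ 2 = u ^ 2 * (L * u) ^ 2 := by rw [← hu4]; ring
      rw [this]
      have h3 : (L * u) ^ 2 ≤ 8 ^ 2 := pow_le_pow_left₀ (by positivity) hLu _
      nlinarith [sq_nonneg u, sq_nonneg (L * u)]
    have h3 : z * L ≤ l / 1000 := by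
      have : z * L = 16 * σ * L ^ 2 / l := by rw [hz]; field_simp
      rw [this, div_le_iff₀ hl0]
      calc 16 * σ * L ^ 2 ≤ 16 * (numC r * t * y) * L ^ 2 := by gcongr
        _ = 16 * numC r * (t * L ^ 2) * y := by ring
        _ ≤ 16 * (1 / 512000) * 32 * l ^ 2 := by gcongr
        _ = l / 1000 * l := by ring
    calc (⌈z⌉₊ : ℝ) * L ≤ (z + 1) * L := by gcongr
      _ = z * L + L := by ring
      _ ≤ l / 1000 + l / 1000 := by linarith
      _ = l / 500 := by ring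


/-- the analytic bound -/
theorem num_bound {r n σ k : ℕ} (hr : 2 ≤ r) {l A K : ℝ} (hl : 1 ≤ l)
    (hn : (n : ℝ) = Real.exp l) (hA : 64 ≤ A)
    (h8 : 8 * Real.sqrt (2 * r) * l ≤ Real.exp (l / 8)) (hk1 : 1 ≤ k) (hkσ : k ≤ σ)
    (hkσ2 : 16 * σ * Real.log A ≤ k * l) (hkL : k * Real.log A ≤ l / 500)
    (hσl : (σ : ℝ) ≤ l ^ 2) (hK0 : 0 ≤ K) (hK : K ≤ l ^ 2) :
    8 ^ k * (2 * Real.sqrt (2 * σ / k) ^ k * Real.sqrt A ^ (σ - k)
              * Real.exp (l / 32) ^ (3 * k) * Real.sqrt (r * k / n) ^ k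
            + 2 * (Real.sqrt A ^ k * Real.exp (-(l / 32))
              + 1 / (Real.exp (-(l / 32)) ^ 2 * Real.exp (l / 32) ^ 4)) * K) ≤
      6 * l ^ 2 * Real.exp (-(l / 64)) := by
  have hr' : (2 : ℝ) ≤ r := by exact_mod_cast hr
  have hA0 : 0 < A := by linarith
  have hk0 : (0 : ℝ) < k := by exact_mod_cast hk1
  have hl0 : 0 < l := by linarith
  set L := Real.log A with hL
  have hAe : A = Real.exp L := (Real.exp_log hA0).symm
  have hsA : Real.sqrt A = Real.exp (L / 2) := by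
    rw [hAe, show Real.exp L = Real.exp (L / 2) ^ 2 by rw [← Real.exp_nat_mul]; congr 1; push_cast; ring]
    rw [Real.sqrt_sq (Real.exp_pos _).le]
  have h64 : Real.exp (2 * Real.log 8) ≤ A := by
    rw [show 2 * Real.log 8 = Real.log 64 by
      rw [show (64 : ℝ) = 8 ^ 2 by norm_num, Real.log_pow]; push_cast; ring]
    rw [Real.exp_log (by norm_num)]; exact hA
  have hL8 : 2 * Real.log 8 ≤ L := by
    rw [hL, Real.le_log_iff_exp_le hA0]; exact h64
  have hlog8 : 0 < Real.log 8 := Real.log_pos (by norm_num)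
  have hL0 : 0 < L := by linarith
  -- first term
  have hfirst : 8 ^ k * (2 * Real.sqrt (2 * σ / k) ^ k * Real.sqrt A ^ (σ - k)
              * Real.exp (l / 32) ^ (3 * k) * Real.sqrt (r * k / n) ^ k) ≤
      2 * Real.exp (-(l / 4)) := by
    have e1 : Real.sqrt A ^ (σ - k) ≤ Real.exp (l / 32) ^ k := by
      rw [hsA, ← Real.exp_nat_mul, ← Real.exp_nat_mul]
      apply Real.exp_le_exp.2
      have : ((σ - k : ℕ) : ℝ) ≤ σ := by exact_mod_cast Nat.sub_le _ _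
      calc ((σ - k : ℕ) : ℝ) * (L / 2) ≤ σ * (L / 2) := by gcongr
        _ = 16 * σ * L / 32 := by ring
        _ ≤ k * l / 32 := by gcongr
        _ = k * (l / 32) := by ring
    have e2 : Real.sqrt (2 * σ / k) * Real.sqrt (r * k / n) =
        Real.sqrt (2 * r * σ) * Real.exp (-(l / 2)) := by
      rw [← Real.sqrt_mul (by positivity)]
      have : (2 * (σ : ℝ) / k) * (r * k / n) = (2 * r * σ) * Real.exp (-(l / 2)) ^ 2 := by
        rw [hn, ← Real.exp_nat_mul]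
        rw [show ((2 : ℕ) : ℝ) * -(l / 2) = -l by push_cast; ring, Real.exp_neg]
        field_simp
      rw [this, Real.sqrt_mul (by positivity), Real.sqrt_sq (Real.exp_pos _).le]
    have e3 : Real.sqrt (2 * r * σ) ≤ Real.sqrt (2 * r) * l := by
      rw [show Real.sqrt (2 * r) * l = Real.sqrt (2 * r * l ^ 2) by
        rw [Real.sqrt_mul (by positivity) (l ^ 2), Real.sqrt_sq hl0.le]]
      apply Real.sqrt_le_sqrt
      gcongr
    have e4 : 8 * (Real.sqrt (2 * r * σ) * Real.exp (-(l / 2))) *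
        Real.exp (l / 32) ^ 4 ≤ Real.exp (-(l / 4)) := by
      calc 8 * (Real.sqrt (2 * r * σ) * Real.exp (-(l / 2))) * Real.exp (l / 32) ^ 4
          ≤ 8 * ((Real.sqrt (2 * r) * l) * Real.exp (-(l / 2))) * Real.exp (l / 32) ^ 4 := by
            gcongr
        _ = (8 * Real.sqrt (2 * r) * l) * (Real.exp (-(l / 2)) * Real.exp (l / 32) ^ 4) := by ring
        _ ≤ Real.exp (l / 8) * (Real.exp (-(l / 2)) * Real.exp (l / 32) ^ 4) := by gcongr
        _ = Real.exp (-(l / 4)) := by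
            rw [← Real.exp_nat_mul, ← Real.exp_add, ← Real.exp_add]
            congr 1; push_cast; ring
    have e5 : Real.exp (-(l / 4)) ≤ 1 := by
      apply Real.exp_le_one_iff.2; linarith
    calc 8 ^ k * (2 * Real.sqrt (2 * σ / k) ^ k * Real.sqrt A ^ (σ - k)
              * Real.exp (l / 32) ^ (3 * k) * Real.sqrt (r * k / n) ^ k)
        ≤ 8 ^ k * (2 * Real.sqrt (2 * σ / k) ^ k * Real.exp (l / 32) ^ k
              * Real.exp (l / 32) ^ (3 * k) * Real.sqrt (r * k / n) ^ k) := by gcongr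
      _ = 2 * (8 * (Real.sqrt (2 * σ / k) * Real.sqrt (r * k / n)) *
            Real.exp (l / 32) ^ 4) ^ k := by
          rw [mul_pow, mul_pow, mul_pow, ← pow_mul]
          rw [show 4 * k = k + 3 * k by ring, pow_add]; ring
      _ ≤ 2 * (Real.exp (-(l / 4))) ^ k := by
          rw [e2]; gcongr
      _ ≤ 2 * (Real.exp (-(l / 4))) ^ 1 := by
          have := pow_le_pow_of_le_one (Real.exp_pos (-(l / 4))).le e5 hk1
          linarith
      _ = 2 * Real.exp (-(l / 4)) := by rw [pow_one]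
  -- second term
  have h8k : (8 : ℝ) ^ k ≤ Real.exp (l / 1000) := by
    rw [← Real.exp_log (show (0 : ℝ) < 8 by norm_num), ← Real.exp_nat_mul]
    apply Real.exp_le_exp.2
    calc (k : ℝ) * Real.log 8 ≤ k * (L / 2) := by gcongr; linarith
      _ = (k * L) / 2 := by ring
      _ ≤ (l / 500) / 2 := by gcongr
      _ = l / 1000 := by ring
  have hAk : Real.sqrt A ^ k ≤ Real.exp (l / 1000) := by
    rw [hsA, ← Real.exp_nat_mul]
    apply Real.exp_le_exp.2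
    calc (k : ℝ) * (L / 2) = (k * L) / 2 := by ring
      _ ≤ (l / 500) / 2 := by gcongr
      _ = l / 1000 := by ring
  have h1 : 1 / (Real.exp (-(l / 32)) ^ 2 * Real.exp (l / 32) ^ 4) = Real.exp (-(l / 16)) := by
    rw [← Real.exp_nat_mul, ← Real.exp_nat_mul, ← Real.exp_add, one_div, ← Real.exp_neg]
    congr 1; push_cast; ring
  have hsecond : 8 ^ k * (2 * (Real.sqrt A ^ k * Real.exp (-(l / 32))
              + 1 / (Real.exp (-(l / 32)) ^ 2 * Real.exp (l / 32) ^ 4)) * K) ≤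
      4 * l ^ 2 * Real.exp (-(l / 64)) := by
    rw [h1]
    calc 8 ^ k * (2 * (Real.sqrt A ^ k * Real.exp (-(l / 32)) + Real.exp (-(l / 16))) * K)
        ≤ Real.exp (l / 1000) * (2 * (Real.exp (l / 1000) * Real.exp (-(l / 32))
            + Real.exp (-(l / 16))) * l ^ 2) := by gcongr
      _ = 2 * l ^ 2 * (Real.exp (l / 1000) * Real.exp (l / 1000) * Real.exp (-(l / 32))
            + Real.exp (l / 1000) * Real.exp (-(l / 16))) := by ring
      _ ≤ 2 * l ^ 2 * (Real.exp (-(l / 64)) + Real.exp (-(l / 64))) := by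
          gcongr
          · rw [← Real.exp_add, ← Real.exp_add]
            apply Real.exp_le_exp.2; linarith
          · rw [← Real.exp_add]
            apply Real.exp_le_exp.2; linarith
      _ = 4 * l ^ 2 * Real.exp (-(l / 64)) := by ring
  have h3 : 2 * Real.exp (-(l / 4)) ≤ 2 * l ^ 2 * Real.exp (-(l / 64)) := by
    have : Real.exp (-(l / 4)) ≤ Real.exp (-(l / 64)) := by
      apply Real.exp_le_exp.2; linarith
    have h4 : 1 ≤ l ^ 2 := by nlinarith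
    have := Real.exp_pos (-(l / 64))
    nlinarith
  rw [mul_add]
  linarith

/-- `W σ` is the Fourier weight at level `σ`, `K = ∑ σ W σ`, `v` the variance. -/
theorem numeric (r : ℕ) (hr : 2 ≤ r) (v : ℝ) (hv : 0 < v) :
    ∃ c : ℝ, 0 < c ∧ ∃ n₀ : ℕ, ∀ n : ℕ, n₀ ≤ n → ∀ p : ℝ, 0 < p → p < 1 →
      ∀ (D : ℕ) (W : ℕ → ℝ), (∀ σ, 0 ≤ W σ) →
      v ≤ ∑ σ ∈ Finset.Icc 1 D, W σ →
      (∑ σ ∈ Finset.Icc 1 D, W σ ≤ 1) →
      (∀ σ k : ℕ, 1 ≤ k → k ≤ σ → 2 * (r * (k - 1)) ^ r ≤ σ → r * k ≤ n →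
        ∀ s m : ℝ, 0 < s → 0 < m →
        W σ ≤ 8 ^ k * (2 * Real.sqrt (2 * σ / k) ^ k * Real.sqrt (16 / (p * (1 - p))) ^ (σ - k)
              * m ^ (3 * k) * Real.sqrt (r * k / n) ^ k
            + 2 * (Real.sqrt (16 / (p * (1 - p))) ^ k * s + 1 / (s ^ 2 * m ^ 4))
              * (∑ σ ∈ Finset.Icc 1 D, σ * W σ))) →
      c * (Real.log n) ^ ((r : ℝ) / (r - 1)) ≤ (∑ σ ∈ Finset.Icc 1 D, σ * W σ) / (p * (1 - p)) := by
  obtain ⟨l₀, hl₀⟩ := num_evt r v hv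
  refine ⟨numC r * v / 2, by have := numC_pos hr; positivity, ⌈Real.exp l₀⌉₊ + 1, ?_⟩
  intro n hn p hp0 hp1 D W hW hvW hW1 H
  set t : ℝ := p * (1 - p) with ht
  have ht0 : 0 < t := mul_pos hp0 (by linarith)
  have ht4 : t ≤ 1 / 4 := by rw [ht]; nlinarith [sq_nonneg (p - 1 / 2)]
  have hn0 : (Real.exp l₀ : ℝ) ≤ n := by
    have h1 : (⌈Real.exp l₀⌉₊ : ℝ) ≤ n := by exact_mod_cast (by omega : ⌈Real.exp l₀⌉₊ ≤ n)
    exact (Nat.le_ceil _).trans h1
  have hnpos : (0 : ℝ) < n := lt_of_lt_of_le (Real.exp_pos _) hn0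
  set l : ℝ := Real.log n with hl
  have hnl : (n : ℝ) = Real.exp l := (Real.exp_log hnpos).symm
  have hll₀ : l₀ ≤ l := by rw [hl, Real.le_log_iff_exp_le hnpos]; exact hn0
  obtain ⟨hl1, hl2, hl3, hl4, hl5⟩ := hl₀ l hll₀
  have hl0 : 0 < l := by linarith
  obtain ⟨hy1, hy2, hy3⟩ := num_y hr hl1
  set y : ℝ := l ^ ((r : ℝ) / (r - 1)) with hy
  have hC := numC_pos hr
  have hC' := numC_le hr
  have hv1 : v ≤ 1 := hvW.trans hW1
  set K : ℝ := ∑ σ ∈ Finset.Icc 1 D, (σ : ℝ) * W σ with hK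
  have hKv : v ≤ K := by
    refine hvW.trans ?_
    apply Finset.sum_le_sum
    intro σ hσ
    have : (1 : ℝ) ≤ σ := by exact_mod_cast (Finset.mem_Icc.1 hσ).1
    nlinarith [hW σ]
  have hK0 : 0 < K := by linarith
  have hc1 : numC r * v / 2 ≤ 1 := by nlinarith
  rw [le_div_iff₀ ht0]
  -- case K large
  by_cases hKl : l ^ 2 ≤ K
  · calc numC r * v / 2 * y * t ≤ 1 * l ^ 2 * 1 := by gcongr; linarith
      _ ≤ K := by linarith
  push Not at hKl
  -- case A large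
  by_cases hA : l / 1000 < Real.log (16 / t)
  · have h1 : Real.exp (l / 1000) * t ≤ 16 := by
      rw [Real.lt_log_iff_exp_lt (by positivity)] at hA
      rw [lt_div_iff₀ ht0] at hA
      exact hA.le
    have h2 : l ^ 2 * t ≤ v := by
      have : 16 * l ^ 2 * t ≤ v * Real.exp (l / 1000) * t := by gcongr
      nlinarith
    calc numC r * v / 2 * y * t ≤ 1 * l ^ 2 * t := by gcongr
      _ = l ^ 2 * t := by ring
      _ ≤ v := h2
      _ ≤ K := hKv
  push Not at hA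
  -- main case
  obtain ⟨u, hu0, hu1, hu4, hu2, hLu⟩ := num_L ht0 ht4
  have hA64 : 64 ≤ 16 / t := by
    rw [le_div_iff₀ ht0]; linarith
  have hL4 : 4 ≤ Real.log (16 / t) := by
    rw [Real.le_log_iff_exp_le (by positivity)]
    have h1 : Real.exp 1 < 2.7182818286 := Real.exp_one_lt_d9
    have h2 : Real.exp 4 = Real.exp 1 ^ 4 := by rw [← Real.exp_nat_mul]; norm_num
    rw [h2]
    calc Real.exp 1 ^ 4 ≤ 2.7182818286 ^ 4 := by gcongr
      _ ≤ 64 := by norm_num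
      _ ≤ 16 / t := hA64
  set T : ℝ := numC r * t * y with hT
  have hT0 : 0 < T := by positivity
  have hTl : T ≤ l ^ 2 := by
    calc T ≤ 1 * 1 * l ^ 2 := by rw [hT]; gcongr <;> linarith
      _ = l ^ 2 := by ring
  -- small levels
  have hsmall : ∀ σ ∈ (Finset.Icc 1 D).filter (fun σ : ℕ => (σ : ℝ) ≤ T),
      W σ ≤ 6 * l ^ 2 * Real.exp (-(l / 64)) := by
    intro σ hσ
    rw [Finset.mem_filter, Finset.mem_Icc] at hσ
    obtain ⟨k, hk1, hkσ, hkr, hk16, hkL, hσl⟩ := num_k hr hl1 ht0 hu0 hu1 hu4 hu2 hL4 hLu hA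
      hσ.1.1 hσ.2
    have hrk : r * k ≤ n := by
      have : ((r * k : ℕ) : ℝ) ≤ n := by
        push_cast
        calc (r : ℝ) * k ≤ r * σ := by gcongr
          _ ≤ r * l ^ 2 := by gcongr
          _ ≤ Real.exp l := hl2
          _ = n := hnl.symm
      exact_mod_cast this
    have h := H σ k hk1 hkσ hkr hrk (Real.exp (-(l / 32))) (Real.exp (l / 32))
      (Real.exp_pos _) (Real.exp_pos _)
    exact h.trans (num_bound hr hl1 hnl hA64 hl3 hk1 hkσ hk16 hkL hσl hK0.le hKl.le)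
  have hcard : (((Finset.Icc 1 D).filter (fun σ : ℕ => (σ : ℝ) ≤ T)).card : ℝ) ≤ T := by
    have hsub : (Finset.Icc 1 D).filter (fun σ : ℕ => (σ : ℝ) ≤ T) ⊆ Finset.Icc 1 ⌊T⌋₊ := by
      intro σ hσ
      rw [Finset.mem_filter, Finset.mem_Icc] at hσ
      rw [Finset.mem_Icc]
      exact ⟨hσ.1.1, Nat.le_floor hσ.2⟩
    have := Finset.card_le_card hsub
    rw [Nat.card_Icc, Nat.add_sub_cancel] at this
    calc (((Finset.Icc 1 D).filter (fun σ : ℕ => (σ : ℝ) ≤ T)).card : ℝ) ≤ (⌊T⌋₊ : ℝ) := by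
          exact_mod_cast this
      _ ≤ T := Nat.floor_le hT0.le
  have hsum1 : ∑ σ ∈ (Finset.Icc 1 D).filter (fun σ : ℕ => (σ : ℝ) ≤ T), W σ ≤ v / 2 := by
    calc ∑ σ ∈ (Finset.Icc 1 D).filter (fun σ : ℕ => (σ : ℝ) ≤ T), W σ
        ≤ ((Finset.Icc 1 D).filter (fun σ : ℕ => (σ : ℝ) ≤ T)).card •
          (6 * l ^ 2 * Real.exp (-(l / 64))) := Finset.sum_le_card_nsmul _ _ _ hsmall
      _ = (((Finset.Icc 1 D).filter (fun σ : ℕ => (σ : ℝ) ≤ T)).card : ℝ) *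
          (6 * l ^ 2 * Real.exp (-(l / 64))) := by rw [nsmul_eq_mul]
      _ ≤ l ^ 2 * (6 * l ^ 2 * Real.exp (-(l / 64))) := by
          gcongr
          exact hcard.trans hTl
      _ = (12 * l ^ 4) * Real.exp (-(l / 64)) / 2 := by ring
      _ ≤ (v * Real.exp (l / 64)) * Real.exp (-(l / 64)) / 2 := by gcongr
      _ = v / 2 := by
          rw [mul_assoc, ← Real.exp_add, add_neg_cancel, Real.exp_zero, mul_one]
  have hsplit := Finset.sum_filter_add_sum_filter_not (Finset.Icc 1 D)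
    (fun σ : ℕ => (σ : ℝ) ≤ T) W
  have hsum2 : v / 2 ≤ ∑ σ ∈ (Finset.Icc 1 D).filter (fun σ : ℕ => ¬ (σ : ℝ) ≤ T), W σ := by
    linarith
  have hfin : T * (v / 2) ≤ K := by
    calc T * (v / 2) ≤ T * ∑ σ ∈ (Finset.Icc 1 D).filter (fun σ : ℕ => ¬ (σ : ℝ) ≤ T), W σ := by
          gcongr
      _ = ∑ σ ∈ (Finset.Icc 1 D).filter (fun σ : ℕ => ¬ (σ : ℝ) ≤ T), T * W σ := by
          rw [Finset.mul_sum]
      _ ≤ ∑ σ ∈ (Finset.Icc 1 D).filter (fun σ : ℕ => ¬ (σ : ℝ) ≤ T), (σ : ℝ) * W σ := by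
          apply Finset.sum_le_sum
          intro σ hσ
          rw [Finset.mem_filter] at hσ
          have := hσ.2
          push Not at this
          exact mul_le_mul_of_nonneg_right this.le (hW σ)
      _ ≤ K := by
          apply Finset.sum_le_sum_of_subset_of_nonneg (Finset.filter_subset _ _)
          intro σ _ _
          exact mul_nonneg (Nat.cast_nonneg σ) (hW σ)
  calc numC r * v / 2 * y * t = T * (v / 2) := by rw [hT]; ring
    _ ≤ K := hfin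

end Vale.Agent.P063h5
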