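import Vale.Agent.P063_h5.Prod

/-! Russo's formula and the bound of the width by the total influence. -/

namespace Vale.Agent.P063h5

open Finset

section

variable {ι : Type*} [Fintype ι] [DecidableEq ι]

/-- derivative of the weight of a biased bit -/
theorem hasDerivAt_wb (b : Bool) (p : ℝ) :
    HasDerivAt (fun p => wb p b) (if b = true then 1 else -1) p := by
  cases b with
  | true => simpa [wb] using hasDerivAt_id' p
  | false =>
    have h := (hasDerivAt_id' p).const_sub 1
    simpa [wb] using h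

theorem wb_sum_b (p : ℝ) : ∑ a, wb p a = 1 := by simp [wb]

theorem ex_De (f : (ι → Bool) → ℝ) (p : ℝ) (e : ι) :
    ex (wb p) (De f e) = ∑ x : ι → Bool,
      ((∏ j ∈ univ.erase e, wb p (x j)) * (if x e = true then 1 else -1)) * f x := by
  have h3 : ∀ (x : ι → Bool) (b : Bool), ∏ i ∈ univ.erase e, wb p (Function.update x e b i)
      = ∏ i ∈ univ.erase e, wb p (x i) := by
    intro x b
    apply prod_congr rfl
    intro i hi
    rw [Function.update_of_ne (ne_of_mem_erase hi)]
  have h4 : ∀ x : ι → Bool, ∏ i, wb p (x i) = wb p (x e) * ∏ i ∈ univ.erase e, wb p (x i) :=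
    fun x => (mul_prod_erase univ _ (mem_univ e)).symm
  have h1 : ∑ x : ι → Bool,
      ((∏ j ∈ univ.erase e, wb p (x j)) * (if x e = true then 1 else -1)) * f x =
      ∑ x : ι → Bool, ∑ a : Bool,
      wb p a * (((∏ j ∈ univ.erase e, wb p (x j)) * (if x e = true then 1 else -1)) * f x) := by
    apply sum_congr rfl
    intro x _
    rw [← sum_mul, wb_sum_b, one_mul]
  have h2 : ex (wb p) (De f e) = ∑ x : ι → Bool, ∑ a : Bool, (∏ i, wb p (x i)) *
      ((if a = true then 1 else -1) * f (Function.update x e a)) := by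
    unfold ex De
    apply sum_congr rfl
    intro x _
    simp only [Fintype.sum_bool]
    simp
    ring
  rw [h1, h2]
  rw [← Fintype.sum_prod_type' (f := fun (x : ι → Bool) (a : Bool) => (∏ i, wb p (x i)) *
      ((if a = true then 1 else -1) * f (Function.update x e a)))]
  rw [← Fintype.sum_prod_type' (f := fun (x : ι → Bool) (a : Bool) =>
      wb p a * (((∏ j ∈ univ.erase e, wb p (x j)) * (if x e = true then 1 else -1)) * f x))]
  let φ : (ι → Bool) × Bool ≃ (ι → Bool) × Bool :=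
    { toFun := fun q => (Function.update q.1 e q.2, q.1 e)
      invFun := fun q => (Function.update q.1 e q.2, q.1 e)
      left_inv := fun q => by simp
      right_inv := fun q => by simp }
  apply Fintype.sum_equiv φ
  rintro ⟨x, a⟩
  simp only [φ, Equiv.coe_fn_mk, Function.update_self]
  rw [h3, h4]
  ring

theorem hasDerivAt_ex (f : (ι → Bool) → ℝ) (p : ℝ) :
    HasDerivAt (fun p => ex (wb p) f) (∑ e, ex (wb p) (De f e)) p := by
  have h : ∀ x : ι → Bool, HasDerivAt (fun p => (∏ e, wb p (x e)) * f x)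
      ((∑ e, (∏ j ∈ univ.erase e, wb p (x j)) * (if x e = true then 1 else -1)) * f x) p := by
    intro x
    apply HasDerivAt.mul_const
    have := HasDerivAt.fun_finsetProd (u := (univ : Finset ι)) (f := fun e p => wb p (x e))
      (f' := fun e => (if x e = true then 1 else -1)) (x := p)
      (fun e _ => hasDerivAt_wb (x e) p)
    simpa [smul_eq_mul] using this
  have h2 := HasDerivAt.fun_sum (u := (univ : Finset (ι → Bool))) (x := p) (fun x _ => h x)
  have h3 : ∑ e, ex (wb p) (De f e) = ∑ x : ι → Bool,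
      (∑ e, (∏ j ∈ univ.erase e, wb p (x j)) * (if x e = true then 1 else -1)) * f x := by
    simp_rw [sum_mul]
    rw [sum_comm]
    exact sum_congr rfl fun e _ => ex_De f p e
  rw [h3]
  exact h2

end

/-! ### The measure of an increasing property -/

section

variable {n r : ℕ}

theorem mu_eq_ex (p : ℝ) (P : Set (Hyp n r)) : mu p P = ex (wb p) (ind P) := by
  unfold mu ex ind wb
  apply sum_congr rfl
  intro x _
  split_ifs <;> simp

theorem wb_nonneg_b {p : ℝ} (h0 : 0 ≤ p) (h1 : p ≤ 1) (a : Bool) : 0 ≤ wb p a := by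
  cases a <;> simp [wb] <;> linarith

theorem ind_nonneg {ι : Type*} (P : Set (ι → Bool)) (x : ι → Bool) : 0 ≤ ind P x := by
  unfold ind; split_ifs <;> norm_num

theorem ind_le_one {ι : Type*} (P : Set (ι → Bool)) (x : ι → Bool) : ind P x ≤ 1 := by
  unfold ind; split_ifs <;> norm_num

theorem mu_nonneg {p : ℝ} (h0 : 0 ≤ p) (h1 : p ≤ 1) (P : Set (Hyp n r)) : 0 ≤ mu p P := by
  rw [mu_eq_ex]
  exact ex_nonneg (wb_nonneg_b h0 h1) (ind_nonneg P)

theorem mu_le_one {p : ℝ} (h0 : 0 ≤ p) (h1 : p ≤ 1) (P : Set (Hyp n r)) : mu p P ≤ 1 := by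
  rw [mu_eq_ex]
  refine (ex_mono (wb_nonneg_b h0 h1) (ind_le_one P)).trans (le_of_eq ?_)
  exact ex_one (wb_sum_b p)

theorem De_ind_sq {P : Set (Hyp n r)} (hP : IsIncreasing P) (e : Edge n r) (x : Hyp n r) :
    De (ind P) e x ^ 2 = De (ind P) e x ∧ 0 ≤ De (ind P) e x := by
  have h : Function.update x e false ∈ P → Function.update x e true ∈ P := by
    apply hP
    intro e' he'
    by_cases h : e' = e
    · subst h; simp
    · rw [Function.update_of_ne h] at he' ⊢; exact he'
  unfold De ind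
  by_cases h1 : Function.update x e false ∈ P
  · simp [h1, h h1]
  · by_cases h2 : Function.update x e true ∈ P
    · simp [h1, h2]
    · simp [h1, h2]

theorem totInf_eq {P : Set (Hyp n r)} (hP : IsIncreasing P) (p : ℝ) :
    totInf p (ind P) = ∑ e, ex (wb p) (De (ind P) e) := by
  unfold totInf
  apply sum_congr rfl
  intro e _
  exact ex_congr _ fun x => (De_ind_sq hP e x).1

theorem hasDerivAt_mu {P : Set (Hyp n r)} (hP : IsIncreasing P) (p : ℝ) :
    HasDerivAt (fun p => mu p P) (totInf p (ind P)) p := by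
  rw [totInf_eq hP]
  have h : (fun p => mu p P) = fun p => ex (wb p) (ind P) := funext fun p => mu_eq_ex p P
  rw [h]
  exact hasDerivAt_ex _ _

theorem totInf_nonneg {p : ℝ} (h0 : 0 ≤ p) (h1 : p ≤ 1) (f : Hyp n r → ℝ) :
    0 ≤ totInf p f :=
  sum_nonneg fun _ _ => ex_nonneg (wb_nonneg_b h0 h1) fun _ => sq_nonneg _

theorem mu_mono {P : Set (Hyp n r)} (hP : IsIncreasing P) {p q : ℝ} (h0 : 0 ≤ p) (hpq : p ≤ q)
    (h1 : q ≤ 1) : mu p P ≤ mu q P := by
  have hd : ∀ x, HasDerivAt (fun p => mu p P) (totInf x (ind P)) x := hasDerivAt_mu hP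
  have hm : MonotoneOn (fun p => mu p P) (Set.Icc 0 1) := by
    apply monotoneOn_of_deriv_nonneg (convex_Icc 0 1)
    · exact fun x _ => (hd x).continuousAt.continuousWithinAt
    · exact fun x _ => (hd x).differentiableAt.differentiableWithinAt
    · intro x hx
      rw [interior_Icc] at hx
      rw [(hd x).deriv]
      exact totInf_nonneg hx.1.le hx.2.le _
  exact hm ⟨h0, hpq.trans h1⟩ ⟨h0.trans hpq, h1⟩ hpq

theorem mu_one {P : Set (Hyp n r)} (hP : IsIncreasing P) (hne : P ≠ ∅) : mu 1 P = 1 := by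
  obtain ⟨x, hx⟩ := Set.nonempty_iff_ne_empty.mpr hne
  have htop : (fun _ => true : Hyp n r) ∈ P := hP x _ (fun _ _ => rfl) hx
  unfold mu
  rw [Finset.sum_eq_single (fun _ => true : Hyp n r)]
  · simp [htop]
  · intro y _ hy
    obtain ⟨e, he⟩ : ∃ e, y e ≠ true := by
      by_contra h
      push Not at h
      exact hy (funext h)
    split_ifs
    · apply prod_eq_zero (mem_univ e)
      simp [he]
    · rfl
  · intro h; exact absurd (mem_univ _) h

theorem pLevel_nonneg (P : Set (Hyp n r)) (a : ℝ) : 0 ≤ pLevel P a :=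
  Real.sInf_nonneg fun _ hx => hx.1

theorem pLevel_le_one {P : Set (Hyp n r)} (hP : IsIncreasing P) (hne : P ≠ ∅) {a : ℝ}
    (ha : a ≤ 1) : pLevel P a ≤ 1 := by
  apply csInf_le
  · exact ⟨0, fun x hx => hx.1⟩
  · exact ⟨zero_le_one, le_rfl, by rw [mu_one hP hne]; exact ha⟩

theorem width_le_one {P : Set (Hyp n r)} (hP : IsIncreasing P) (hne : P ≠ ∅) {ε : ℝ}
    (hε : 0 < ε) : width P ε ≤ 1 := by
  have h1 := pLevel_nonneg P ε
  have h2 := pLevel_le_one hP hne (a := 1 - ε) (by linarith)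
  unfold width
  linarith

theorem width_le_of_totInf {P : Set (Hyp n r)} (hP : IsIncreasing P) (hne : P ≠ ∅) {ε M : ℝ}
    (hε : 0 < ε) (hε2 : ε < 1 / 2) (hM : 0 < M)
    (H : ∀ p : ℝ, 0 < p → p < 1 → ε ≤ mu p P → mu p P ≤ 1 - ε → M ≤ totInf p (ind P)) :
    width P ε ≤ 1 / M := by
  set pl := pLevel P ε with hpl
  set pu := pLevel P (1 - ε) with hpu
  have hl0 : 0 ≤ pl := pLevel_nonneg P ε
  have hu1 : pu ≤ 1 := pLevel_le_one hP hne (by linarith)
  change pu - pl ≤ 1 / M
  rcases le_or_gt pu pl with hle | hlt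
  · have : 0 < 1 / M := by positivity
    linarith
  have hd : ∀ x, HasDerivAt (fun p => mu p P) (totInf x (ind P)) x := hasDerivAt_mu hP
  have key := (convex_Icc pl pu).mul_sub_le_image_sub_of_le_deriv (f := fun p => mu p P) (C := M)
    (fun x _ => (hd x).continuousAt.continuousWithinAt)
    (fun x _ => (hd x).differentiableAt.differentiableWithinAt) (by
      intro x hx
      rw [interior_Icc] at hx
      rw [(hd x).deriv]
      have hx1 : x < 1 := lt_of_lt_of_le hx.2 hu1
      have hx0 : 0 < x := lt_of_le_of_lt hl0 hx.1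
      apply H x hx0 hx1
      · have hnon : {p : ℝ | 0 ≤ p ∧ p ≤ 1 ∧ ε ≤ mu p P}.Nonempty :=
          ⟨1, zero_le_one, le_rfl, by rw [mu_one hP hne]; linarith⟩
        obtain ⟨q, hq, hqx⟩ := exists_lt_of_csInf_lt hnon (show sInf _ < x from hx.1)
        exact hq.2.2.trans (mu_mono hP hq.1 hqx.le hx1.le)
      · by_contra hcon
        push Not at hcon
        have : pu ≤ x := by
          apply csInf_le
          · exact ⟨0, fun x hx => hx.1⟩
          · exact ⟨hx0.le, hx1.le, hcon.le⟩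
        linarith [hx.2])
    pl ⟨le_rfl, hlt.le⟩ pu ⟨hlt.le, le_rfl⟩ hlt.le
  have h1 : mu pu P ≤ 1 := mu_le_one (hl0.trans hlt.le) hu1 P
  have h2 : 0 ≤ mu pl P := mu_nonneg hl0 (hlt.le.trans hu1) P
  have h3 : M * (pu - pl) ≤ 1 := by linarith
  rw [le_div_iff₀ hM]
  linarith

/-- final assembly: from the influence bound to the width -/
theorem width_of_influence (r : ℕ) (hr : 2 ≤ r) (ε : ℝ) (hε : 0 < ε) (hε2 : ε < 1 / 2)
    (H : ∃ c : ℝ, 0 < c ∧ ∃ n₀ : ℕ, ∀ n : ℕ, n₀ ≤ n → ∀ p : ℝ, 0 < p → p < 1 →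
      ∀ P : Set (Hyp n r), IsInvariant P → ε ≤ mu p P → mu p P ≤ 1 - ε →
        c * (Real.log n) ^ ((r : ℝ) / (r - 1)) ≤ totInf p (ind P)) :
    ∃ C : ℝ, 0 < C ∧ ∀ n : ℕ, r ≤ n → ∀ P : Set (Hyp n r),
      IsInvariant P → IsIncreasing P → IsNontrivial P →
        width P ε ≤ C * (Real.log n) ^ (-((r : ℝ) / (r - 1))) := by
  obtain ⟨c, hc, n₀, H⟩ := H
  have hr' : (2 : ℝ) ≤ r := by exact_mod_cast hr
  have ha : 0 < (r : ℝ) / (r - 1) := div_pos (by linarith) (by linarith)
  set a : ℝ := (r : ℝ) / (r - 1) with hadef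
  have hL0 : 0 < Real.log (n₀ + 2) := Real.log_pos (by
    have : (0 : ℝ) ≤ n₀ := Nat.cast_nonneg _
    linarith)
  refine ⟨1 / c + Real.log (n₀ + 2) ^ a, by positivity, ?_⟩
  intro n hn P hinv hinc hnt
  have hn2 : (2 : ℝ) ≤ n := by exact_mod_cast hr.trans hn
  have hln : 0 < Real.log n := Real.log_pos (by linarith)
  have hpow : 0 < Real.log n ^ a := Real.rpow_pos_of_pos hln a
  have hneg : Real.log n ^ (-a) = 1 / Real.log n ^ a := by
    rw [Real.rpow_neg hln.le, one_div]
  rw [hneg]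
  rcases le_or_gt n₀ n with h | h
  · have h1 := width_le_of_totInf hinc hnt.1 (M := c * Real.log n ^ a) hε hε2 (by positivity)
      (fun p hp0 hp1 hp2 hp3 => H n h p hp0 hp1 P hinv hp2 hp3)
    refine h1.trans ?_
    have h2 : 0 < Real.log (n₀ + 2) ^ a := Real.rpow_pos_of_pos hL0 a
    have h3 : 1 / (c * Real.log n ^ a) = 1 / c * (1 / Real.log n ^ a) := by
      field_simp
    rw [h3]
    have h4 : 0 < 1 / Real.log n ^ a := by positivity
    exact mul_le_mul_of_nonneg_right (by linarith) h4.le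
  · have h1 := width_le_one hinc hnt.1 hε
    refine h1.trans ?_
    have h2 : Real.log n ^ a ≤ Real.log (n₀ + 2) ^ a := by
      apply Real.rpow_le_rpow hln.le _ ha.le
      apply Real.log_le_log (by linarith)
      have : (n : ℝ) < n₀ := by exact_mod_cast h
      linarith
    have h3 : 0 < 1 / c := by positivity
    rw [mul_one_div, le_div_iff₀ hpow, one_mul]
    linarith

end

end Vale.Agent.P063h5
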