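import Vale.Agent.P063_h5.Hyp
import Vale.Agent.P063_h5.Russo
import Vale.Agent.P063_h5.Core
import Vale.Agent.P063_h5.Num

/-!
# Final assembly: the influence lower bound for hypergraph properties and the threshold width
-/

namespace Vale.Agent.P063h5

open Finset

section

variable {ι : Type*} [Fintype ι] [DecidableEq ι]

theorem lev_nonneg (p : ℝ) (f : (ι → Bool) → ℝ) (σ : ℕ) : 0 ≤ lev p f σ :=
  sum_nonneg fun S _ => by split_ifs <;> positivity

/-- summation over levels -/
theorem sum_levels (p : ℝ) (f : (ι → Bool) → ℝ) (g : ℕ → ℝ) :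
    ∑ σ ∈ Icc 1 (Fintype.card ι), g σ * lev p f σ =
      (∑ S : Finset ι, g S.card * fhat p f S ^ 2) - g 0 * fhat p f ∅ ^ 2 := by
  unfold lev
  simp_rw [mul_sum]
  rw [sum_comm]
  have h1 : ∀ S : Finset ι, ∑ σ ∈ Icc 1 (Fintype.card ι),
      g σ * (if S.card = σ then fhat p f S ^ 2 else 0) =
      g S.card * fhat p f S ^ 2 - (if S = ∅ then g 0 * fhat p f ∅ ^ 2 else 0) := by
    intro S
    by_cases hS : S = ∅
    · subst hS
      rw [if_pos rfl, card_empty, sub_self]
      apply sum_eq_zero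
      intro σ hσ
      rw [if_neg (by have := (mem_Icc.mp hσ).1; omega), mul_zero]
    · rw [if_neg hS, sub_zero]
      have h2 : S.card ∈ Icc 1 (Fintype.card ι) :=
        mem_Icc.mpr ⟨card_pos.mpr (nonempty_iff_ne_empty.mpr hS), card_le_univ S⟩
      rw [sum_eq_single_of_mem _ h2]
      · rw [if_pos rfl]
      · intro σ _ hne
        rw [if_neg (fun h => hne h.symm), mul_zero]
  simp_rw [h1]
  rw [sum_sub_distrib]
  simp

end

/-- The action of a permutation of the vertices on the edges, as an equivalence. -/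
def edgeEquiv {n r : ℕ} (π : Equiv.Perm (Fin n)) : Edge n r ≃ Edge n r where
  toFun := permEdge π
  invFun := permEdge π⁻¹
  left_inv e := by
    apply Subtype.ext
    ext x
    simp [permEdge, Equiv.Perm.inv_def]
  right_inv e := by
    apply Subtype.ext
    ext x
    simp [permEdge, Equiv.Perm.inv_def]

theorem ind_comp_edgeEquiv {n r : ℕ} {P : Set (Hyp n r)} (hP : IsInvariant P)
    (π : Equiv.Perm (Fin n)) (x : Hyp n r) : ind P (x ∘ edgeEquiv π) = ind P x := by
  have h1 : x ∘ edgeEquiv π ∈ P ↔ x ∈ P := by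
    constructor
    · intro h
      have h2 := hP π⁻¹ _ h
      have h3 : (fun e => (x ∘ edgeEquiv π) (permEdge π⁻¹ e)) = x := by
        funext e
        exact congrArg x ((edgeEquiv π).right_inv e)
      rwa [h3] at h2
    · intro h
      exact hP π x h
  unfold ind
  by_cases hx : x ∈ P
  · rw [if_pos (h1.mpr hx), if_pos hx]
  · rw [if_neg (fun h => hx (h1.mp h)), if_neg hx]

/-- The lower bound for the total influence of hypergraph properties. -/
theorem influence_lower (r : ℕ) (hr : 2 ≤ r) (ε : ℝ) (hε : 0 < ε) (hε2 : ε < 1 / 2) :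
    ∃ c : ℝ, 0 < c ∧ ∃ n₀ : ℕ, ∀ n : ℕ, n₀ ≤ n → ∀ p : ℝ, 0 < p → p < 1 →
      ∀ P : Set (Hyp n r), IsInvariant P → ε ≤ mu p P → mu p P ≤ 1 - ε →
        c * (Real.log n) ^ ((r : ℝ) / (r - 1)) ≤ totInf p (ind P) := by
  classical
  obtain ⟨c, hc, n₀, H⟩ := numeric r hr (ε * (1 - ε)) (by nlinarith)
  refine ⟨c, hc, max n₀ 1, ?_⟩
  intro n hn p hp0 hp1 P hP hmu1 hmu2
  have hn0 : n₀ ≤ n := (le_max_left _ _).trans hn
  have hn1 : 1 ≤ n := (le_max_right _ _).trans hn
  have hpq : 0 < p * (1 - p) := mul_pos hp0 (by linarith)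
  have hsum1 : ∑ σ ∈ Icc 1 (Fintype.card (Edge n r)), lev p (ind P) σ =
      mu p P - mu p P ^ 2 := by
    have h1 := sum_levels p (ind P) (fun _ => 1)
    simp only [one_mul] at h1
    rw [h1, parseval hp0 hp1, fhat_empty, mu_eq_ex]
    congr 1
    apply ex_congr
    intro x
    unfold ind
    split_ifs <;> norm_num
  have hsumK : ∑ σ ∈ Icc 1 (Fintype.card (Edge n r)), (σ : ℝ) * lev p (ind P) σ =
      Kf p (ind P) := by
    have h1 := sum_levels p (ind P) (fun σ => (σ : ℝ))
    rw [h1]
    unfold Kf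
    simp
  have key := H n hn0 p hp0 hp1 (Fintype.card (Edge n r)) (lev p (ind P))
    (lev_nonneg p (ind P)) (by rw [hsum1]; nlinarith) (by rw [hsum1]; nlinarith [sq_nonneg (mu p P)])
    ?_
  · rw [hsumK, Kf_eq hp0 hp1, mul_div_cancel_left₀ _ hpq.ne'] at key
    exact key
  · intro σ k hk hkσ hσ hrk s m hs hm
    rw [hsumK]
    have hnR : (0 : ℝ) < n := by exact_mod_cast hn1
    have hrR : (0 : ℝ) < r := by exact_mod_cast (by omega : 0 < r)
    have hkR : (0 : ℝ) < k := by exact_mod_cast hk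
    have hbase : (0 : ℝ) < (n : ℝ) / (r * k) := by positivity
    have hN : (0 : ℝ) < ((n : ℝ) / (r * k)) ^ k := by positivity
    have hcore := core (ind P) (fun x => by unfold ind; split_ifs <;> simp) p hp0 hp1 σ k hk hkσ
      (((univ : Finset (Edge n r)).powersetCard k).filter (fun T => k ≤ (verts T).card))
      (fun T hT => (mem_powersetCard.mp (mem_filter.mp hT).1).2) (((n : ℝ) / (r * k)) ^ k) hN
      ?_ ?_ s m hs hm
    · have hsqrt : Real.sqrt (1 / ((n : ℝ) / (r * k)) ^ k) =
          Real.sqrt ((r : ℝ) * k / n) ^ k := by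
        have h1 : 1 / ((n : ℝ) / (r * k)) ^ k = ((r : ℝ) * k / n) ^ k := by
          rw [← one_div_pow]
          congr 1
          field_simp
        rw [h1]
        have h2 : (0 : ℝ) ≤ (r : ℝ) * k / n := by positivity
        conv_lhs => rw [← Real.sq_sqrt h2]
        rw [← pow_mul, mul_comm 2 k, pow_mul, Real.sqrt_sq (by positivity)]
      rw [hsqrt] at hcore
      exact hcore
    · intro T hT
      obtain ⟨hT1, hT2⟩ := mem_filter.mp hT
      obtain ⟨O, hO1, hO2⟩ := orbit_large k hk (by omega) hrk T (mem_powersetCard.mp hT1).2 hT2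
      refine ⟨O, hO1, ?_⟩
      intro T' hT'
      obtain ⟨π, rfl⟩ := hO2 T' hT'
      refine ⟨edgeEquiv π, ind_comp_edgeEquiv hP π, ?_⟩
      ext e
      rw [mem_image, mem_map]
      exact Iff.rfl
    · intro S hS
      have h1 := count_sparse k hk S (by omega) (by rw [hS]; exact hσ)
      rw [hS] at h1
      refine h1.trans (le_of_eq ?_)
      congr 2
      congr 1
      ext T
      simp only [mem_filter, mem_powersetCard, subset_univ, true_and]
      tauto

/-- **The Friedgut–Kalai threshold-width conjecture** for `r`-uniform hypergraph properties. -/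
theorem width_le (r : ℕ) (hr : 2 ≤ r) (ε : ℝ) (hε : 0 < ε) (hε2 : ε < 1 / 2) :
    ∃ C : ℝ, 0 < C ∧ ∀ n : ℕ, r ≤ n → ∀ P : Set (Hyp n r),
      IsInvariant P → IsIncreasing P → IsNontrivial P →
        width P ε ≤ C * (Real.log n) ^ (-((r : ℝ) / (r - 1))) :=
  width_of_influence r hr ε hε hε2 (influence_lower r hr ε hε hε2)

end Vale.Agent.P063h5
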