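import Vale.Agent.P063_h5.Bonami

/-!
`p`-biased Fourier analysis on `{0,1}^ι`.
-/

namespace Vale.Agent.P063h5

open Finset

set_option linter.unusedSectionVars false

/-- the normalised `p`-biased bit -/
noncomputable def ph (p : ℝ) : Bool → ℝ :=
  fun b => if b = true then Real.sqrt ((1 - p) / p) else - Real.sqrt (p / (1 - p))

section bit

variable {p : ℝ} (hp0 : 0 < p) (hp1 : p < 1)

theorem wb_sum (p : ℝ) : ∑ a, wb p a = 1 := by
  simp [wb]

include hp0 hp1

theorem wb_nonneg (a : Bool) : 0 ≤ wb p a := by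
  unfold wb
  split_ifs <;> linarith

theorem wb_pos (a : Bool) : 0 < wb p a := by
  unfold wb
  split_ifs <;> linarith

theorem sqrt_qp_mul : Real.sqrt ((1 - p) / p) * Real.sqrt (p / (1 - p)) = 1 := by
  have hq : 0 < 1 - p := by linarith
  rw [← Real.sqrt_mul (by positivity)]
  have : (1 - p) / p * (p / (1 - p)) = 1 := by field_simp
  rw [this, Real.sqrt_one]

theorem ph_mean : ∑ a, wb p a * ph p a = 0 := by
  have hq : 0 < 1 - p := by linarith
  simp only [Fintype.sum_bool, wb, ph]
  simp only [if_true, Bool.false_eq_true, if_false]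
  have h1 : p * Real.sqrt ((1 - p) / p) = Real.sqrt (p * (1 - p)) := by
    rw [show p * Real.sqrt ((1 - p) / p) = Real.sqrt (p ^ 2) * Real.sqrt ((1 - p) / p) by
      rw [Real.sqrt_sq hp0.le]]
    rw [← Real.sqrt_mul (by positivity)]
    congr 1
    field_simp
  have h2 : (1 - p) * Real.sqrt (p / (1 - p)) = Real.sqrt (p * (1 - p)) := by
    rw [show (1 - p) * Real.sqrt (p / (1 - p)) = Real.sqrt ((1 - p) ^ 2) * Real.sqrt (p / (1 - p)) by
      rw [Real.sqrt_sq hq.le]]
    rw [← Real.sqrt_mul (by positivity)]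
    congr 1
    field_simp
  rw [h1]
  linarith

theorem ph_sq : ∑ a, wb p a * ph p a ^ 2 = 1 := by
  have hq : 0 < 1 - p := by linarith
  simp only [Fintype.sum_bool, wb, ph]
  simp only [if_true, Bool.false_eq_true, if_false]
  rw [neg_sq, Real.sq_sqrt (by positivity), Real.sq_sqrt (by positivity)]
  field_simp
  ring

theorem ph_four : ∑ a, wb p a * ph p a ^ 4 ≤ 1 / (p * (1 - p)) := by
  have hq : 0 < 1 - p := by linarith
  simp only [Fintype.sum_bool, wb, ph]
  simp only [if_true, Bool.false_eq_true, if_false]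
  have h1 : Real.sqrt ((1 - p) / p) ^ 4 = ((1 - p) / p) ^ 2 := by
    rw [show (4:ℕ) = 2 * 2 by norm_num, pow_mul, Real.sq_sqrt (by positivity)]
  have h2 : (-Real.sqrt (p / (1 - p))) ^ 4 = (p / (1 - p)) ^ 2 := by
    rw [show (4:ℕ) = 2 * 2 by norm_num, pow_mul, neg_sq, Real.sq_sqrt (by positivity)]
  rw [h1, h2]
  have h3 : p * ((1 - p) / p) ^ 2 + (1 - p) * (p / (1 - p)) ^ 2
      = ((1 - p) ^ 3 + p ^ 3) / (p * (1 - p)) := by
    field_simp
  rw [h3]
  apply div_le_div_of_nonneg_right _ (by positivity)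
  nlinarith [mul_pos hp0 hq]

theorem ph_diff : ph p true - ph p false = 1 / Real.sqrt (p * (1 - p)) := by
  have hq : 0 < 1 - p := by linarith
  have hs : 0 < Real.sqrt (p * (1 - p)) := Real.sqrt_pos.2 (by positivity)
  simp only [ph]
  simp only [if_true, Bool.false_eq_true, if_false]
  rw [eq_div_iff hs.ne', sub_neg_eq_add, add_mul, ← Real.sqrt_mul (by positivity),
    ← Real.sqrt_mul (by positivity)]
  have h1 : (1 - p) / p * (p * (1 - p)) = (1 - p) ^ 2 := by field_simp
  have h2 : p / (1 - p) * (p * (1 - p)) = p ^ 2 := by field_simp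
  rw [h1, h2, Real.sqrt_sq hq.le, Real.sqrt_sq hp0.le]
  ring

theorem ph_kernel (a b : Bool) : 1 + ph p a * ph p b = if a = b then 1 / wb p b else 0 := by
  have hq : 0 < 1 - p := by linarith
  have hm := sqrt_qp_mul hp0 hp1
  cases a <;> cases b <;> simp only [ph, wb, if_true, Bool.false_eq_true, if_false,
    Bool.true_eq_false]
  · rw [neg_mul_neg, ← sq, Real.sq_sqrt (by positivity)]
    field_simp
    ring
  · linarith
  · linarith
  · rw [← sq, Real.sq_sqrt (by positivity)]
    field_simp
    ring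

end bit

section

variable {ι : Type*} [Fintype ι] [DecidableEq ι]

/-- `p`-biased Fourier coefficient -/
noncomputable def fhat (p : ℝ) (f : (ι → Bool) → ℝ) (S : Finset ι) : ℝ :=
  ex (wb p) (fun x => f x * mon (ph p) S x)

theorem fourier_expansion {p : ℝ} (hp0 : 0 < p) (hp1 : p < 1) (f : (ι → Bool) → ℝ) (x : ι → Bool) :
    f x = poly (ph p) (fhat p f) x := by
  unfold poly fhat ex
  simp_rw [sum_mul]
  rw [sum_comm]
  have h1 : ∀ x' : ι → Bool, ∑ S : Finset ι, (∏ e, wb p (x' e)) * (f x' * mon (ph p) S x')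
      * mon (ph p) S x = (∏ e, wb p (x' e)) * f x' * ∏ e, (1 + ph p (x' e) * ph p (x e)) := by
    intro x'
    rw [prod_one_add, powerset_univ, mul_sum]
    apply sum_congr rfl
    intro S _
    unfold mon
    rw [prod_mul_distrib]
    ring
  simp_rw [h1, ph_kernel hp0 hp1]
  rw [Fintype.sum_eq_single x]
  · simp only [if_true]
    have h2 : (∏ e, wb p (x e)) * ∏ e, (1 / wb p (x e)) = 1 := by
      rw [← prod_mul_distrib]
      apply prod_eq_one
      intro e _
      rw [mul_one_div, div_self (wb_pos hp0 hp1 _).ne']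
    rw [mul_right_comm, h2, one_mul]
  · intro x' hx'
    obtain ⟨e, he⟩ : ∃ e, x' e ≠ x e := by
      by_contra hcon
      push Not at hcon
      exact hx' (funext hcon)
    have h3 : ∏ e, (if x' e = x e then 1 / wb p (x e) else 0) = 0 :=
      prod_eq_zero (mem_univ e) (if_neg he)
    rw [h3, mul_zero]

theorem parseval_poly {p : ℝ} (hp0 : 0 < p) (hp1 : p < 1) (c c' : Finset ι → ℝ) :
    ex (wb p) (fun x => poly (ph p) c x * poly (ph p) c' x) = ∑ S : Finset ι, c S * c' S := by
  rw [ex_poly_mul (wb_sum p) (ph_mean hp0 hp1) (ph_sq hp0 hp1)]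
  simp

/-- splitting a sum over all subsets according to membership of `e` -/
theorem sum_split (e : ι) (F : Finset ι → ℝ) :
    ∑ S : Finset ι, F S = ∑ S ∈ (univ.erase e).powerset, F S
      + ∑ S ∈ (univ.erase e).powerset, F (insert e S) := by
  have h1 : (univ : Finset (Finset ι)) = (insert e (univ.erase e)).powerset := by
    rw [insert_erase (mem_univ e), powerset_univ]
  rw [h1, sum_powerset_insert (notMem_erase e univ)]

theorem notMem_of_mem_powerset_erase {e : ι} {S : Finset ι} (h : S ∈ (univ.erase e).powerset) :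
    e ∉ S := fun he => notMem_erase e univ (mem_powerset.1 h he)

theorem sum_mem_split (e : ι) (F : Finset ι → ℝ) :
    ∑ S : Finset ι, (if e ∈ S then F S else 0)
      = ∑ R : Finset ι, (if e ∈ R then 0 else F (insert e R)) := by
  rw [sum_split e, sum_split e (fun R => if e ∈ R then 0 else F (insert e R))]
  have h1 : ∑ S ∈ (univ.erase e).powerset, (if e ∈ S then F S else 0) = 0 := by
    apply sum_eq_zero
    intro S hS
    rw [if_neg (notMem_of_mem_powerset_erase hS)]
  have h2 : ∑ S ∈ (univ.erase e).powerset,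
      (if e ∈ insert e S then 0 else F (insert e (insert e S))) = 0 := by
    apply sum_eq_zero
    intro S _
    rw [if_pos (mem_insert_self e S)]
  rw [h1, h2, zero_add, add_zero]
  apply sum_congr rfl
  intro S hS
  rw [if_pos (mem_insert_self e S), if_neg (notMem_of_mem_powerset_erase hS)]

/-- the discrete derivative of a polynomial -/
theorem De_poly {p : ℝ} (hp0 : 0 < p) (hp1 : p < 1) (G : Finset ι → ℝ) (e : ι) (x : ι → Bool) :
    De (poly (ph p) G) e x = poly (ph p)
      (fun R => if e ∈ R then 0 else G (insert e R) * (1 / Real.sqrt (p * (1 - p)))) x := by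
  have h0 : ∀ x : ι → Bool, poly (ph p) G x = polyU (ph p) (univ.erase e) G x
      + ph p (x e) * polyU (ph p) (univ.erase e) (fun S => G (insert e S)) x := by
    intro x
    rw [← polyU_insert (ph p) (notMem_erase e univ), insert_erase (mem_univ e), polyU_univ]
  unfold De
  rw [h0, h0]
  simp only [Function.update_self]
  rw [polyU_update (ph p) (notMem_erase e univ), polyU_update (ph p) (notMem_erase e univ),
    polyU_update (ph p) (notMem_erase e univ), polyU_update (ph p) (notMem_erase e univ)]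
  rw [add_sub_add_left_eq_sub, ← sub_mul, ph_diff hp0 hp1]
  unfold poly polyU
  rw [sum_split e]
  have h2 : ∑ S ∈ (univ.erase e).powerset,
      (if e ∈ insert e S then 0 else G (insert e (insert e S)) * (1 / Real.sqrt (p * (1 - p))))
        * mon (ph p) (insert e S) x = 0 := by
    apply sum_eq_zero
    intro S _
    rw [if_pos (mem_insert_self e S), zero_mul]
  rw [h2, add_zero, mul_sum]
  apply sum_congr rfl
  intro S hS
  beta_reduce
  rw [if_neg (notMem_of_mem_powerset_erase hS)]
  ring

/-- Friedgut's step: low degree weight on an element of small influence. -/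
theorem friedgut_step {p : ℝ} (hp0 : 0 < p) (hp1 : p < 1) (g : (ι → Bool) → ℝ)
    (hg : ∀ x, g x = 0 ∨ g x = 1) (G : Finset ι → ℝ) (hG : ∀ x, g x = poly (ph p) G x)
    (e : ι) (k : ℕ) (hk : 1 ≤ k) :
    (∑ T : Finset ι, if e ∈ T then (if T.card = k then G T ^ 2 else 0) else 0) ^ 2
      ≤ (16 / (p * (1 - p))) ^ k * (∑ T : Finset ι, if e ∈ T then G T ^ 2 else 0) ^ 3 := by
  have hq : 0 < 1 - p := by linarith
  have hpq : 0 < p * (1 - p) := by positivity
  have hpq4 : p * (1 - p) ≤ 1 / 4 := by nlinarith [sq_nonneg (p - 1 / 2)]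
  set s : ℝ := 1 / Real.sqrt (p * (1 - p)) with hs
  have hs2 : s ^ 2 = 1 / (p * (1 - p)) := by
    rw [hs, div_pow, one_pow, Real.sq_sqrt hpq.le]
  set A : ℝ := 16 / (p * (1 - p)) with hA
  have hA64 : 64 ≤ A := by
    rw [hA, le_div_iff₀ hpq]
    linarith
  set c : Finset ι → ℝ := fun R => if e ∈ R then 0 else G (insert e R) * s with hc
  set c' : Finset ι → ℝ := fun R => if R.card = k - 1 then c R else 0 with hc'
  have hgG : g = poly (ph p) G := funext hG
  have hD : ∀ x, De g e x = poly (ph p) c x := by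
    intro x
    rw [hgG, De_poly hp0 hp1]
  -- the derivative takes values in {-1,0,1}
  have habs : ∀ x, |De g e x| = De g e x ^ 2 := by
    intro x
    unfold De
    rcases hg (Function.update x e true) with h | h <;>
      rcases hg (Function.update x e false) with h' | h' <;> rw [h, h'] <;> norm_num
  set I : ℝ := ∑ T : Finset ι, if e ∈ T then G T ^ 2 else 0 with hI
  set L : ℝ := ∑ T : Finset ι, if e ∈ T then (if T.card = k then G T ^ 2 else 0) else 0 with hL
  have hI0 : 0 ≤ I := sum_nonneg fun T _ => by split_ifs <;> positivity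
  have hL0 : 0 ≤ L := sum_nonneg fun T _ => by split_ifs <;> positivity
  have hD2 : ex (wb p) (fun x => De g e x ^ 2) = I / (p * (1 - p)) := by
    have e1 : ∀ x, De g e x ^ 2 = poly (ph p) c x * poly (ph p) c x := fun x => by rw [hD]; ring
    rw [ex_congr _ e1, parseval_poly hp0 hp1, hI, sum_mem_split e (fun T => G T ^ 2), sum_div]
    apply sum_congr rfl
    intro R _
    simp only [hc]
    split_ifs
    · simp
    · rw [show G (insert e R) * s * (G (insert e R) * s) = G (insert e R) ^ 2 * s ^ 2 by ring, hs2]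
      ring
  have hcc : ∀ R, c R * c' R = c' R * c' R := by
    intro R
    simp only [hc']
    split_ifs <;> ring
  set Q : ℝ := ex (wb p) (fun x => poly (ph p) c' x ^ 2) with hQ
  have hQval : Q = L / (p * (1 - p)) := by
    have e1 : ∀ x, poly (ph p) c' x ^ 2 = poly (ph p) c' x * poly (ph p) c' x := fun x => by ring
    rw [hQ, ex_congr _ e1, parseval_poly hp0 hp1, hL,
      sum_mem_split e (fun T => if T.card = k then G T ^ 2 else 0), sum_div]
    apply sum_congr rfl
    intro R _
    simp only [hc', hc]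
    by_cases he : e ∈ R
    · simp [he]
    · rw [if_neg he, if_neg he, card_insert_of_notMem he]
      by_cases hR : R.card = k - 1
      · have hR' : R.card + 1 = k := by omega
        rw [if_pos hR, if_pos hR', show G (insert e R) * s * (G (insert e R) * s)
          = G (insert e R) ^ 2 * s ^ 2 by ring, hs2]
        ring
      · have hR' : ¬ (R.card + 1 = k) := by omega
        rw [if_neg hR, if_neg hR']
        simp
  have hinner : ex (wb p) (fun x => De g e x * poly (ph p) c' x) = Q := by
    have e1 : ∀ x, De g e x * poly (ph p) c' x = poly (ph p) c x * poly (ph p) c' x :=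
      fun x => by rw [hD]
    have e2 : ∀ x, poly (ph p) c' x ^ 2 = poly (ph p) c' x * poly (ph p) c' x := fun x => by ring
    rw [hQ, ex_congr _ e1, ex_congr _ e2, parseval_poly hp0 hp1, parseval_poly hp0 hp1]
    exact sum_congr rfl fun R _ => hcc R
  have hlev := level_ineq (wb_nonneg hp0 hp1) (wb_sum p) (ph_mean hp0 hp1) (ph_sq hp0 hp1)
    one_pos (A := A) (by linarith) (by
      have := ph_four hp0 hp1
      have h16 : 3 * (1 / (p * (1 - p))) ≤ A := by
        rw [hA, ← mul_one_div]
        rw [mul_one_div, mul_one_div]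
        apply div_le_div_of_nonneg_right _ hpq.le
        norm_num
      linarith) (k - 1) c' (fun S hS => by
        simp only [hc']
        rw [if_neg (by omega)]) (De g e)
  rw [hinner, ← hQ] at hlev
  have habs' : ex (wb p) (fun x => |De g e x|) = I / (p * (1 - p)) := by
    rw [ex_congr _ habs, hD2]
  rw [habs', hD2] at hlev
  -- hlev : Q^4 ≤ (I/pq)^2 * (I/pq) * (A^(k-1) * Q^2)
  have hQ0 : 0 ≤ Q := by rw [hQval]; positivity
  have hQ2 : Q ^ 2 ≤ (I / (p * (1 - p))) ^ 3 * A ^ (k - 1) := by
    rcases hQ0.eq_or_lt with h | h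
    · rw [← h, zero_pow two_ne_zero]
      positivity
    · have h2 : 0 < Q ^ 2 := by positivity
      have h3 : Q ^ 2 * Q ^ 2 ≤ (I / (p * (1 - p))) ^ 3 * A ^ (k - 1) * Q ^ 2 := by
        calc Q ^ 2 * Q ^ 2 = Q ^ 4 := by ring
          _ ≤ _ := hlev
          _ = _ := by ring
      exact le_of_mul_le_mul_right h3 h2
  have hLQ : L = p * (1 - p) * Q := by
    rw [hQval]
    field_simp
  have hAk : A ^ k = A ^ (k - 1) * A := by
    rw [← pow_succ]
    congr 1
    omega
  calc L ^ 2 = (p * (1 - p)) ^ 2 * Q ^ 2 := by rw [hLQ]; ring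
    _ ≤ (p * (1 - p)) ^ 2 * ((I / (p * (1 - p))) ^ 3 * A ^ (k - 1)) :=
        mul_le_mul_of_nonneg_left hQ2 (sq_nonneg _)
    _ = A ^ (k - 1) * (1 / (p * (1 - p))) * I ^ 3 := by
        field_simp
    _ ≤ A ^ (k - 1) * A * I ^ 3 := by
        apply mul_le_mul_of_nonneg_right _ (by positivity)
        apply mul_le_mul_of_nonneg_left _ (by positivity)
        rw [hA]
        apply div_le_div_of_nonneg_right _ hpq.le
        norm_num
    _ = A ^ k * I ^ 3 := by rw [hAk]

/-- level-`σ` Fourier weight -/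
noncomputable def lev (p : ℝ) (f : (ι → Bool) → ℝ) (σ : ℕ) : ℝ :=
  ∑ S : Finset ι, if S.card = σ then fhat p f S ^ 2 else 0

/-- `∑ |S| f̂(S)^2` -/
noncomputable def Kf (p : ℝ) (f : (ι → Bool) → ℝ) : ℝ :=
  ∑ S : Finset ι, (S.card : ℝ) * fhat p f S ^ 2

/-- `∑ |S| f̂(S)^2 = p(1-p) ∑_e E (D_e f)^2` -/
theorem Kf_eq {p : ℝ} (hp0 : 0 < p) (hp1 : p < 1) (f : (ι → Bool) → ℝ) :
    Kf p f = p * (1 - p) * totInf p f := by
  have hq : 0 < 1 - p := by linarith
  have hpq : 0 < p * (1 - p) := by positivity
  set s : ℝ := 1 / Real.sqrt (p * (1 - p)) with hs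
  have hs2 : s ^ 2 = 1 / (p * (1 - p)) := by
    rw [hs, div_pow, one_pow, Real.sq_sqrt hpq.le]
  have hf : f = poly (ph p) (fhat p f) := funext (fourier_expansion hp0 hp1 f)
  have h1 : ∀ e, ex (wb p) (fun x => De f e x ^ 2)
      = (∑ S : Finset ι, if e ∈ S then fhat p f S ^ 2 else 0) / (p * (1 - p)) := by
    intro e
    have e1 : ∀ x, De f e x ^ 2 = poly (ph p)
      (fun R => if e ∈ R then 0 else fhat p f (insert e R) * s) x * poly (ph p)
      (fun R => if e ∈ R then 0 else fhat p f (insert e R) * s) x := fun x => by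
        rw [show De f e x = De (poly (ph p) (fhat p f)) e x by rw [← hf], De_poly hp0 hp1]
        ring
    rw [ex_congr _ e1, parseval_poly hp0 hp1, sum_mem_split e (fun T => fhat p f T ^ 2), sum_div]
    apply sum_congr rfl
    intro R _
    split_ifs
    · simp
    · rw [show fhat p f (insert e R) * s * (fhat p f (insert e R) * s)
        = fhat p f (insert e R) ^ 2 * s ^ 2 by ring, hs2]
      ring
  unfold totInf Kf
  simp_rw [h1]
  rw [← sum_div, mul_div_cancel₀ _ hpq.ne', sum_comm]
  apply sum_congr rfl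
  intro S _
  rw [sum_ite_mem, univ_inter, sum_const, nsmul_eq_mul]

theorem fhat_empty (p : ℝ) (f : (ι → Bool) → ℝ) : fhat p f ∅ = ex (wb p) f := by
  unfold fhat mon
  simp

theorem parseval {p : ℝ} (hp0 : 0 < p) (hp1 : p < 1) (f : (ι → Bool) → ℝ) :
    ∑ S : Finset ι, fhat p f S ^ 2 = ex (wb p) (fun x => f x ^ 2) := by
  have e1 : ∀ x, f x ^ 2 = poly (ph p) (fhat p f) x * poly (ph p) (fhat p f) x := fun x => by
    rw [← fourier_expansion hp0 hp1]
    ring
  rw [ex_congr _ e1, parseval_poly hp0 hp1]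
  exact sum_congr rfl fun S _ => by ring

end

end Vale.Agent.P063h5
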