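import Vale.Agent.P063_h5.Defs

/-!
# Two counting lemmas for uniform hypergraphs

* `count_sparse`: every set of `σ` edges contains many `k`-subsets spanning at least `k` vertices;
* `orbit_large`: such a `k`-subset has many distinct images under vertex permutations.
-/

namespace Vale.Agent.P063h5

open Finset

/-! #### Module HYP (combinatorics of hypergraphs) -/

theorem card_verts_le {n r : ℕ} (T : Finset (Edge n r)) : (verts T).card ≤ r * T.card := by
  unfold verts
  calc (T.biUnion (fun e => e.1)).card ≤ ∑ e ∈ T, e.1.card := card_biUnion_le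
    _ = ∑ _e ∈ T, r := sum_congr rfl (fun e _ => e.2)
    _ = r * T.card := by rw [sum_const, smul_eq_mul, mul_comm]

theorem card_inside_le {n r : ℕ} (S : Finset (Edge n r)) (V : Finset (Fin n)) :
    (S.filter (fun e => e.1 ⊆ V)).card ≤ V.card ^ r := by
  calc (S.filter (fun e => e.1 ⊆ V)).card ≤ (V.powersetCard r).card := by
        apply card_le_card_of_injOn (fun e => e.1)
        · intro e he
          have h := (mem_filter.mp he).2
          exact mem_coe.mpr (mem_powersetCard.mpr ⟨h, e.2⟩)
        · intro e _ e' _ h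
          exact Subtype.ext h
    _ = V.card.choose r := card_powersetCard _ _
    _ ≤ V.card ^ r := Nat.choose_le_pow _ _

theorem verts_insert {n r : ℕ} (e : Edge n r) (T : Finset (Edge n r)) :
    verts (insert e T) = e.1 ∪ verts T := by
  unfold verts
  rw [biUnion_insert]

theorem subset_verts {n r : ℕ} {e : Edge n r} {T : Finset (Edge n r)} (he : e ∈ T) :
    e.1 ⊆ verts T := by
  intro x hx
  exact mem_biUnion.mpr ⟨e, he, hx⟩

/-- one step of the greedy count -/
theorem count_step {n r : ℕ} (k j : ℕ) (hj : j < k) (S : Finset (Edge n r))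
    (h : 2 * (r * (k - 1)) ^ r ≤ S.card) :
    ((S.powersetCard j).filter (fun T => j ≤ (verts T).card)).card * S.card ≤
      2 * (((S.powersetCard (j + 1)).filter (fun T => j + 1 ≤ (verts T).card)).card * (j + 1)) := by
  classical
  have key := card_mul_le_card_mul (s := (S.powersetCard j).filter (fun T => j ≤ (verts T).card))
    (t := (S.powersetCard (j + 1)).filter (fun T => j + 1 ≤ (verts T).card))
    (fun T T' => T ⊆ T') (m := S.card - (r * (k - 1)) ^ r) (n := j + 1) ?_ ?_
  · have h2 : S.card ≤ 2 * (S.card - (r * (k - 1)) ^ r) := by omega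
    calc _ ≤ ((S.powersetCard j).filter (fun T => j ≤ (verts T).card)).card *
          (2 * (S.card - (r * (k - 1)) ^ r)) := Nat.mul_le_mul_left _ h2
      _ = 2 * (((S.powersetCard j).filter (fun T => j ≤ (verts T).card)).card *
          (S.card - (r * (k - 1)) ^ r)) := by ring
      _ ≤ _ := Nat.mul_le_mul_left _ key
  · intro T hT
    obtain ⟨hT1, hT2⟩ := mem_filter.mp hT
    obtain ⟨hTS, hTc⟩ := mem_powersetCard.mp hT1
    have hin : (S.filter (fun e => e.1 ⊆ verts T)).card ≤ (r * (k - 1)) ^ r := by
      refine (card_inside_le S (verts T)).trans (Nat.pow_le_pow_left ?_ r)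
      refine (card_verts_le T).trans (Nat.mul_le_mul_left r ?_)
      omega
    have hout : S.card - (r * (k - 1)) ^ r ≤ (S.filter (fun e => ¬ e.1 ⊆ verts T)).card := by
      have := card_filter_add_card_filter_not (s := S) (fun e => e.1 ⊆ verts T)
      omega
    refine hout.trans ?_
    apply card_le_card_of_injOn (fun e => insert e T)
    · intro e he
      obtain ⟨heS, heV⟩ := mem_filter.mp (mem_coe.mp he)
      have heT : e ∉ T := fun h' => heV (subset_verts h')
      simp only [bipartiteAbove, coe_filter, mem_filter, mem_powersetCard, Set.mem_ofPred_eq]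
      refine ⟨⟨⟨insert_subset heS hTS, by rw [card_insert_of_notMem heT, hTc]⟩, ?_⟩,
        subset_insert _ _⟩
      rw [verts_insert]
      obtain ⟨x, hx, hxV⟩ := not_subset.mp heV
      have h1 : insert x (verts T) ⊆ e.1 ∪ verts T :=
        insert_subset (mem_union_left _ hx) subset_union_right
      have h2 := card_le_card h1
      rw [card_insert_of_notMem hxV] at h2
      omega
    · intro e he e' he' hee
      obtain ⟨_, heV⟩ := mem_filter.mp (mem_coe.mp he)
      have heT : e ∉ T := fun h' => heV (subset_verts h')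
      have h3 : e ∈ insert e' T := by
        have h4 : e ∈ insert e T := mem_insert_self _ _
        have h5 : insert e T = insert e' T := hee
        rw [h5] at h4
        exact h4
      rcases mem_insert.mp h3 with h | h
      · exact h
      · exact absurd h heT
  · intro T' hT'
    obtain ⟨hT1, _⟩ := mem_filter.mp hT'
    obtain ⟨_, hTc⟩ := mem_powersetCard.mp hT1
    calc _ ≤ (T'.powersetCard j).card := by
          apply card_le_card
          intro T hT
          obtain ⟨hT2, hT3⟩ := mem_filter.mp hT
          obtain ⟨hT4, _⟩ := mem_filter.mp hT2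
          exact mem_powersetCard.mpr ⟨hT3, (mem_powersetCard.mp hT4).2⟩
      _ = j + 1 := by rw [card_powersetCard, hTc, Nat.choose_succ_self_right]

/-- greedy count: every set of `σ` edges contains many `k`-subsets spanning at least `k` vertices -/
theorem count_sparse {n r : ℕ} (k : ℕ) (hk : 1 ≤ k) (S : Finset (Edge n r)) (hr : 1 ≤ r)
    (h : 2 * (r * (k - 1)) ^ r ≤ S.card) :
    ((S.card : ℝ) / 2) ^ k ≤
      (k.factorial : ℝ) * ((S.powersetCard k).filter (fun T => k ≤ (verts T).card)).card := by
  have main : ∀ j : ℕ, j ≤ k → ((S.card : ℝ) / 2) ^ j ≤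
      (j.factorial : ℝ) * ((S.powersetCard j).filter (fun T => j ≤ (verts T).card)).card := by
    intro j
    induction j with
    | zero =>
      intro _
      simp
    | succ j ih =>
      intro hj
      have h1 := ih (by omega)
      have h2 := count_step k j (by omega) S h
      have h3 : (((S.powersetCard j).filter (fun T => j ≤ (verts T).card)).card : ℝ) * S.card ≤
          2 * ((((S.powersetCard (j + 1)).filter
            (fun T => j + 1 ≤ (verts T).card)).card : ℝ) * ((j : ℝ) + 1)) := by
        exact_mod_cast h2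
      have hS : (0 : ℝ) ≤ S.card := Nat.cast_nonneg _
      have hf : (0 : ℝ) ≤ (j.factorial : ℝ) := Nat.cast_nonneg _
      rw [pow_succ, Nat.factorial_succ]
      push_cast
      calc ((S.card : ℝ) / 2) ^ j * ((S.card : ℝ) / 2)
          ≤ ((j.factorial : ℝ) *
              ((S.powersetCard j).filter (fun T => j ≤ (verts T).card)).card) *
              ((S.card : ℝ) / 2) := mul_le_mul_of_nonneg_right h1 (by positivity)
        _ = (j.factorial : ℝ) / 2 *
              ((((S.powersetCard j).filter (fun T => j ≤ (verts T).card)).card : ℝ) * S.card) := by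
            ring
        _ ≤ (j.factorial : ℝ) / 2 * (2 * ((((S.powersetCard (j + 1)).filter
            (fun T => j + 1 ≤ (verts T).card)).card : ℝ) * ((j : ℝ) + 1))) :=
            mul_le_mul_of_nonneg_left h3 (by positivity)
        _ = _ := by ring
  exact main k le_rfl

theorem pow_div_le_choose (n v : ℕ) (hv : 1 ≤ v) (hvn : v ≤ n) :
    ((n : ℝ) / v) ^ v ≤ (n.choose v : ℝ) := by
  induction v generalizing n with
  | zero => omega
  | succ v ih =>
    obtain ⟨n, rfl⟩ : ∃ m, n = m + 1 := ⟨n - 1, by omega⟩
    rcases Nat.eq_zero_or_pos v with h0 | h0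
    · subst h0
      simp
    · have h1 := ih n h0 (by omega)
      have h2 : (((n + 1 : ℕ) : ℝ)) * (n.choose v : ℝ) =
          ((n + 1).choose (v + 1) : ℝ) * ((v + 1 : ℕ) : ℝ) := by
        exact_mod_cast Nat.add_one_mul_choose_eq n v
      have hvp : (0 : ℝ) < ((v : ℕ) : ℝ) := by exact_mod_cast h0
      have hvp1 : (0 : ℝ) < ((v + 1 : ℕ) : ℝ) := by positivity
      have hle : (((n + 1 : ℕ) : ℝ)) / ((v + 1 : ℕ) : ℝ) ≤ (n : ℝ) / v := by
        rw [div_le_div_iff₀ hvp1 hvp]
        push_cast
        have h3 : (v : ℝ) ≤ n := by exact_mod_cast (by omega : v ≤ n)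
        nlinarith
      have h4 : ((n + 1).choose (v + 1) : ℝ) =
          (((n + 1 : ℕ) : ℝ)) / ((v + 1 : ℕ) : ℝ) * (n.choose v : ℝ) := by
        field_simp
        linarith
      rw [h4, pow_succ, mul_comm]
      apply mul_le_mul_of_nonneg_left _ (by positivity)
      exact (pow_le_pow_left₀ (by positivity) hle v).trans h1

theorem exists_perm_map {n : ℕ} (V V' : Finset (Fin n)) (h : V.card = V'.card) :
    ∃ π : Equiv.Perm (Fin n), V.map π.toEmbedding = V' := by
  classical
  have hc : Fintype.card {x // x ∈ V} = Fintype.card {x // x ∈ V'} := by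
    simpa using h
  let e : {x // x ∈ V} ≃ {x // x ∈ V'} := Fintype.equivOfCardEq hc
  refine ⟨e.extendSubtype, ?_⟩
  apply eq_of_subset_of_card_le
  · intro y hy
    obtain ⟨x, hx, rfl⟩ := mem_map.mp hy
    exact e.extendSubtype_mem x hx
  · rw [card_map]
    exact h.ge

theorem verts_image {n r : ℕ} (π : Equiv.Perm (Fin n)) (T : Finset (Edge n r)) :
    verts (T.image (permEdge π)) = (verts T).map π.toEmbedding := by
  ext x
  simp only [verts, mem_biUnion, mem_image, mem_map]
  constructor
  · rintro ⟨e', ⟨e, he, rfl⟩, hx⟩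
    obtain ⟨y, hy, rfl⟩ := mem_map.mp hx
    exact ⟨y, ⟨e, he, hy⟩, rfl⟩
  · rintro ⟨y, ⟨e, he, hy⟩, rfl⟩
    exact ⟨permEdge π e, ⟨e, he, rfl⟩, mem_map_of_mem _ hy⟩

/-- many distinct images under vertex permutations -/
theorem orbit_large {n r : ℕ} (k : ℕ) (hk : 1 ≤ k) (hr : 1 ≤ r) (hn : r * k ≤ n)
    (T : Finset (Edge n r)) (hT : T.card = k) (hV : k ≤ (verts T).card) :
    ∃ O : Finset (Finset (Edge n r)), ((n : ℝ) / (r * k)) ^ k ≤ O.card ∧
      ∀ T' ∈ O, ∃ π : Equiv.Perm (Fin n), T' = T.image (permEdge π) := by
  classical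
  set v := (verts T).card with hv
  have hvr : v ≤ r * k := by
    have := card_verts_le T
    rw [hT] at this
    exact this
  have hvn : v ≤ n := hvr.trans hn
  have hex : ∀ V' : Finset (Fin n), ∃ π : Equiv.Perm (Fin n), V'.card = v →
      (verts T).map π.toEmbedding = V' := by
    intro V'
    by_cases h : V'.card = v
    · obtain ⟨π, hπ⟩ := exists_perm_map (verts T) V' h.symm
      exact ⟨π, fun _ => hπ⟩
    · exact ⟨1, fun h' => absurd h' h⟩
  choose π hπ using hex
  refine ⟨((univ : Finset (Fin n)).powersetCard v).image (fun V' => T.image (permEdge (π V'))),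
    ?_, ?_⟩
  · have hcard : (((univ : Finset (Fin n)).powersetCard v).image
        (fun V' => T.image (permEdge (π V')))).card = n.choose v := by
      rw [card_image_of_injOn]
      · rw [card_powersetCard, card_univ, Fintype.card_fin]
      · intro V₁ h₁ V₂ h₂ h12
        have e1 := congrArg verts h12
        simp only [verts_image] at e1
        rw [hπ V₁ (mem_powersetCard.mp (mem_coe.mp h₁)).2,
          hπ V₂ (mem_powersetCard.mp (mem_coe.mp h₂)).2] at e1
        exact e1
    rw [hcard]
    have hv1 : 1 ≤ v := hk.trans hV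
    refine le_trans ?_ (pow_div_le_choose n v hv1 hvn)
    have hrk : (0 : ℝ) < (r : ℝ) * k := by
      have h1 : (0 : ℝ) < r := by exact_mod_cast hr
      have h2 : (0 : ℝ) < k := by exact_mod_cast hk
      positivity
    have hbase : (1 : ℝ) ≤ (n : ℝ) / (r * k) := by
      rw [le_div_iff₀ hrk, one_mul]
      exact_mod_cast hn
    calc ((n : ℝ) / (r * k)) ^ k ≤ ((n : ℝ) / (r * k)) ^ v := pow_le_pow_right₀ hbase hV
      _ ≤ ((n : ℝ) / v) ^ v := by
          apply pow_le_pow_left₀ (by positivity)
          apply div_le_div_of_nonneg_left (Nat.cast_nonneg _)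
          · exact_mod_cast hv1
          · exact_mod_cast hvr
  · intro T' hT'
    obtain ⟨V', _, rfl⟩ := mem_image.mp hT'
    exact ⟨π V', rfl⟩

end Vale.Agent.P063h5
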