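import Vale.Agent.P063_h5.Defs

/-!
Expectation over a finite product space: basic properties.
-/

namespace Vale.Agent.P063h5

open Finset

set_option linter.unusedSectionVars false

section

variable {ι Ω : Type*} [Fintype ι] [DecidableEq ι] [Fintype Ω]

theorem ex_add (w : Ω → ℝ) (F G : (ι → Ω) → ℝ) :
    ex w (fun ω => F ω + G ω) = ex w F + ex w G := by
  unfold ex
  rw [← sum_add_distrib]
  exact sum_congr rfl fun ω _ => by ring

theorem ex_sub (w : Ω → ℝ) (F G : (ι → Ω) → ℝ) :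
    ex w (fun ω => F ω - G ω) = ex w F - ex w G := by
  unfold ex
  rw [← sum_sub_distrib]
  exact sum_congr rfl fun ω _ => by ring

theorem ex_const_mul (w : Ω → ℝ) (c : ℝ) (F : (ι → Ω) → ℝ) :
    ex w (fun ω => c * F ω) = c * ex w F := by
  unfold ex
  rw [mul_sum]
  exact sum_congr rfl fun ω _ => by ring

theorem ex_mul_const (w : Ω → ℝ) (c : ℝ) (F : (ι → Ω) → ℝ) :
    ex w (fun ω => F ω * c) = ex w F * c := by
  unfold ex
  rw [sum_mul]
  exact sum_congr rfl fun ω _ => by ring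

theorem ex_sum {κ : Type*} (w : Ω → ℝ) (s : Finset κ) (F : κ → (ι → Ω) → ℝ) :
    ex w (fun ω => ∑ j ∈ s, F j ω) = ∑ j ∈ s, ex w (F j) := by
  unfold ex
  rw [sum_comm]
  exact sum_congr rfl fun ω _ => by rw [mul_sum]

theorem ex_zero (w : Ω → ℝ) : ex w (fun _ : ι → Ω => (0:ℝ)) = 0 := by
  simp [ex]

theorem ex_congr (w : Ω → ℝ) {F G : (ι → Ω) → ℝ} (h : ∀ ω, F ω = G ω) : ex w F = ex w G := by
  have : F = G := funext h
  rw [this]

/-- product formula -/
theorem ex_prod (w : Ω → ℝ) (h : ι → Ω → ℝ) :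
    ex w (fun ω => ∏ e, h e (ω e)) = ∏ e, ∑ a, w a * h e a := by
  unfold ex
  rw [Finset.prod_univ_sum]
  rw [Fintype.piFinset_univ]
  exact sum_congr rfl fun ω _ => by rw [← prod_mul_distrib]

theorem ex_one {w : Ω → ℝ} (hw1 : ∑ a, w a = 1) : ex w (fun _ : ι → Ω => (1:ℝ)) = 1 := by
  have := ex_prod (ι := ι) w (fun _ _ => (1:ℝ))
  simpa [hw1] using this

theorem ex_const {w : Ω → ℝ} (hw1 : ∑ a, w a = 1) (c : ℝ) :
    ex w (fun _ : ι → Ω => c) = c := by
  have := ex_const_mul (ι := ι) w c (fun _ => (1:ℝ))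
  simpa [ex_one hw1] using this

theorem ex_nonneg {w : Ω → ℝ} (hw0 : ∀ a, 0 ≤ w a) {F : (ι → Ω) → ℝ} (hF : ∀ ω, 0 ≤ F ω) :
    0 ≤ ex w F :=
  sum_nonneg fun ω _ => mul_nonneg (prod_nonneg fun e _ => hw0 _) (hF ω)

theorem ex_mono {w : Ω → ℝ} (hw0 : ∀ a, 0 ≤ w a) {F G : (ι → Ω) → ℝ} (h : ∀ ω, F ω ≤ G ω) :
    ex w F ≤ ex w G :=
  sum_le_sum fun ω _ => mul_le_mul_of_nonneg_left (h ω) (prod_nonneg fun e _ => hw0 _)

theorem ex_neg (w : Ω → ℝ) (F : (ι → Ω) → ℝ) : ex w (fun ω => - F ω) = - ex w F := by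
  have := ex_const_mul (ι := ι) w (-1) F
  simpa using this

theorem abs_ex_le {w : Ω → ℝ} (hw0 : ∀ a, 0 ≤ w a) (F : (ι → Ω) → ℝ) :
    |ex w F| ≤ ex w (fun ω => |F ω|) := by
  rw [abs_le]
  constructor
  · rw [← ex_neg]
    exact ex_mono hw0 fun ω => neg_abs_le _
  · exact ex_mono hw0 fun ω => le_abs_self _

/-- Cauchy-Schwarz -/
theorem ex_mul_sq_le {w : Ω → ℝ} (hw0 : ∀ a, 0 ≤ w a) (F G : (ι → Ω) → ℝ) :
    (ex w (fun ω => F ω * G ω)) ^ 2 ≤ ex w (fun ω => F ω ^ 2) * ex w (fun ω => G ω ^ 2) := by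
  unfold ex
  apply Finset.sum_sq_le_sum_mul_sum_of_sq_le_mul
  · intro ω _
    exact mul_nonneg (prod_nonneg fun e _ => hw0 _) (sq_nonneg _)
  · intro ω _
    exact mul_nonneg (prod_nonneg fun e _ => hw0 _) (sq_nonneg _)
  · intro ω _
    apply le_of_eq
    ring

/-- invariance under relabelling of the coordinates -/
theorem ex_comp_equiv (w : Ω → ℝ) (ρ : ι ≃ ι) (F : (ι → Ω) → ℝ) :
    ex w (fun ω => F (ω ∘ ρ)) = ex w F := by
  unfold ex
  apply Fintype.sum_equiv (Equiv.arrowCongr ρ.symm (Equiv.refl Ω))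
  intro ω
  have h1 : (Equiv.arrowCongr ρ.symm (Equiv.refl Ω)) ω = ω ∘ ρ := by
    funext e
    simp [Equiv.arrowCongr]
  rw [h1]
  congr 1
  exact (Equiv.prod_comp ρ (fun e => w (ω e))).symm

/-- resampling one coordinate -/
theorem ex_resample {w : Ω → ℝ} (hw1 : ∑ a, w a = 1) (e : ι) (F : (ι → Ω) → ℝ) :
    ex w (fun ω => ∑ a, w a * F (Function.update ω e a)) = ex w F := by
  classical
  unfold ex
  have h1 : ∀ ω : ι → Ω, (∏ i, w (ω i)) * ∑ a, w a * F (Function.update ω e a)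
      = ∑ a, (∏ i, w (ω i)) * (w a * F (Function.update ω e a)) := fun ω => mul_sum _ _ _
  simp_rw [h1]
  rw [← Fintype.sum_prod_type' (f := fun (ω : ι → Ω) (a : Ω) =>
    (∏ i, w (ω i)) * (w a * F (Function.update ω e a)))]
  have h2 : ∀ ω : ι → Ω, (∏ i, w (ω i)) * F ω = ∑ a, (∏ i, w (ω i)) * (w a * F ω) := by
    intro ω
    rw [← mul_sum, ← sum_mul, hw1, one_mul]
  simp_rw [h2]
  rw [← Fintype.sum_prod_type' (f := fun (ω : ι → Ω) (a : Ω) =>
    (∏ i, w (ω i)) * (w a * F ω))]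
  let φ : (ι → Ω) × Ω ≃ (ι → Ω) × Ω :=
    { toFun := fun q => (Function.update q.1 e q.2, q.1 e)
      invFun := fun q => (Function.update q.1 e q.2, q.1 e)
      left_inv := fun q => by simp
      right_inv := fun q => by simp }
  apply Fintype.sum_equiv φ
  rintro ⟨ω, a⟩
  simp only [φ, Equiv.coe_fn_mk]
  have h3 : ∀ b : Ω, ∏ i, w (Function.update ω e b i) = w b * ∏ i ∈ univ.erase e, w (ω i) := by
    intro b
    rw [← mul_prod_erase univ _ (mem_univ e)]
    congr 1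
    · simp
    · apply prod_congr rfl
      intro i hi
      rw [Function.update_of_ne (ne_of_mem_erase hi)]
  have h4 : ∏ i, w (ω i) = w (ω e) * ∏ i ∈ univ.erase e, w (ω i) :=
    (mul_prod_erase univ _ (mem_univ e)).symm
  rw [h3, h4]
  ring

/-- independence of one coordinate and a function of the others -/
theorem ex_indep {w : Ω → ℝ} (hw1 : ∑ a, w a = 1) (e : ι) (h : Ω → ℝ) (F : (ι → Ω) → ℝ)
    (hF : ∀ ω a, F (Function.update ω e a) = F ω) :
    ex w (fun ω => h (ω e) * F ω) = (∑ a, w a * h a) * ex w F := by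
  rw [← ex_resample hw1 e]
  rw [← ex_const_mul]
  apply ex_congr
  intro ω
  simp only [Function.update_self, hF]
  rw [sum_mul]
  exact sum_congr rfl fun a _ => by ring

end

end Vale.Agent.P063h5
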