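import Vale.Agent.P063_h5.Fourier

/-!
Random restrictions, in the joint space of (alive, value) pairs.
-/

namespace Vale.Agent.P063h5

open Finset

set_option linter.unusedSectionVars false

/-- weights of a pair (alive, value) -/
noncomputable def w2 (δ p : ℝ) : Bool × Bool → ℝ := fun a => wb δ a.1 * wb p a.2

/-- the value variable, zero on alive coordinates -/
noncomputable def y2 (p : ℝ) : Bool × Bool → ℝ := fun a => if a.1 = true then 0 else ph p a.2

/-- indicator of alive -/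
noncomputable def u2 : Bool × Bool → ℝ := fun a => if a.1 = true then 1 else 0

section moments

variable {δ p : ℝ}

theorem w2_nonneg (hδ0 : 0 < δ) (hδ1 : δ < 1) (hp0 : 0 < p) (hp1 : p < 1) (a : Bool × Bool) :
    0 ≤ w2 δ p a := mul_nonneg (wb_nonneg hδ0 hδ1 _) (wb_nonneg hp0 hp1 _)

theorem w2_sum (δ p : ℝ) : ∑ a, w2 δ p a = 1 := by
  unfold w2
  rw [Fintype.sum_prod_type]
  simp_rw [← mul_sum, wb_sum, mul_one, wb_sum]

theorem w2_y1 (hp0 : 0 < p) (hp1 : p < 1) : ∑ a, w2 δ p a * y2 p a = 0 := by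
  unfold w2 y2
  rw [Fintype.sum_prod_type, Fintype.sum_bool]
  have h := ph_mean hp0 hp1
  simp only [if_true, mul_zero, sum_const_zero, Bool.false_eq_true, if_false, zero_add]
  simp_rw [mul_assoc]
  rw [← mul_sum, h, mul_zero]

theorem w2_y2 (hp0 : 0 < p) (hp1 : p < 1) : ∑ a, w2 δ p a * y2 p a ^ 2 = 1 - δ := by
  unfold w2 y2
  rw [Fintype.sum_prod_type, Fintype.sum_bool]
  have h := ph_sq hp0 hp1
  simp only [if_true, Bool.false_eq_true, if_false, ne_eq, OfNat.ofNat_ne_zero, not_false_eq_true,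
    zero_pow, mul_zero, sum_const_zero, zero_add]
  simp_rw [mul_assoc]
  rw [← mul_sum, h, mul_one]
  simp [wb]

theorem w2_y4 (hδ0 : 0 < δ) (hδ1 : δ ≤ 1 / 2) (hp0 : 0 < p) (hp1 : p < 1) :
    3 * ∑ a, w2 δ p a * y2 p a ^ 4 ≤ 16 / (p * (1 - p)) * (1 - δ) ^ 2 := by
  have hq : 0 < 1 - p := by linarith
  have hpq : 0 < p * (1 - p) := by positivity
  unfold w2 y2
  rw [Fintype.sum_prod_type, Fintype.sum_bool]
  have h := ph_four hp0 hp1
  simp only [if_true, Bool.false_eq_true, if_false, ne_eq, OfNat.ofNat_ne_zero, not_false_eq_true,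
    zero_pow, mul_zero, sum_const_zero, zero_add]
  simp_rw [mul_assoc]
  rw [← mul_sum]
  have h1 : wb δ false = 1 - δ := by simp [wb]
  rw [h1]
  have h2 : 3 * ((1 - δ) * ∑ i, wb p i * ph p i ^ 4) ≤ 3 * ((1 - δ) * (1 / (p * (1 - p)))) := by
    apply mul_le_mul_of_nonneg_left _ (by norm_num)
    exact mul_le_mul_of_nonneg_left h (by linarith)
  have h3 : 3 * ((1 - δ) * (1 / (p * (1 - p)))) = (3 * (1 - δ)) / (p * (1 - p)) := by ring
  have h4 : 16 / (p * (1 - p)) * (1 - δ) ^ 2 = (16 * (1 - δ) ^ 2) / (p * (1 - p)) := by ring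
  rw [h4]
  rw [h3] at h2
  apply h2.trans
  apply div_le_div_of_nonneg_right _ hpq.le
  nlinarith

end moments

section

variable {ι : Type*} [Fintype ι] [DecidableEq ι]

/-- the Fourier coefficient at `T` of the restricted function, as a function of the restriction -/
noncomputable def GT (p : ℝ) (f : (ι → Bool) → ℝ) (T : Finset ι) (ω : ι → Bool × Bool) : ℝ :=
  mon u2 T ω * ∑ S : Finset ι, if T ⊆ S then fhat p f S * mon (y2 p) (S \ T) ω else 0

/-- merge a restriction with values on the alive coordinates -/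
def mrg (ω : ι → Bool × Bool) (x : ι → Bool) : ι → Bool :=
  fun e => if (ω e).1 = true then x e else (ω e).2

theorem ph_mrg (p : ℝ) (ω : ι → Bool × Bool) (x : ι → Bool) (e : ι) :
    ph p (mrg ω x e) = u2 (ω e) * ph p (x e) + y2 p (ω e) := by
  unfold mrg u2 y2
  by_cases h : (ω e).1 = true
  · simp [h]
  · simp [h]

theorem sum_powerset_ite (S : Finset ι) (F : Finset ι → ℝ) :
    ∑ T ∈ S.powerset, F T = ∑ T : Finset ι, if T ⊆ S then F T else 0 := by
  rw [← sum_filter]
  apply sum_congr _ fun _ _ => rfl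
  ext T
  simp

theorem restrict_expansion {p : ℝ} (hp0 : 0 < p) (hp1 : p < 1) (f : (ι → Bool) → ℝ)
    (ω : ι → Bool × Bool) (x : ι → Bool) :
    f (mrg ω x) = poly (ph p) (fun T => GT p f T ω) x := by
  rw [fourier_expansion hp0 hp1 f (mrg ω x)]
  unfold poly
  have h1 : ∀ S : Finset ι, mon (ph p) S (mrg ω x)
      = ∑ T : Finset ι, if T ⊆ S then mon u2 T ω * mon (ph p) T x * mon (y2 p) (S \ T) ω else 0 := by
    intro S
    unfold mon
    simp_rw [ph_mrg]
    rw [prod_add, sum_powerset_ite]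
    apply sum_congr rfl
    intro T _
    rw [prod_mul_distrib]
  simp_rw [h1, mul_sum]
  rw [sum_comm]
  apply sum_congr rfl
  intro T _
  unfold GT
  rw [mul_sum, sum_mul]
  apply sum_congr rfl
  intro S _
  split_ifs
  · ring
  · simp

theorem restrict_parseval {p : ℝ} (hp0 : 0 < p) (hp1 : p < 1) (f : (ι → Bool) → ℝ)
    (hf : ∀ x, f x = 0 ∨ f x = 1) (ω : ι → Bool × Bool) :
    ∑ T : Finset ι, GT p f T ω ^ 2 ≤ 1 := by
  have h1 : ∑ T : Finset ι, GT p f T ω ^ 2 = ex (wb p) (fun x => f (mrg ω x) ^ 2) := by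
    have e1 : ∀ x, f (mrg ω x) ^ 2 = poly (ph p) (fun T => GT p f T ω) x
      * poly (ph p) (fun T => GT p f T ω) x := fun x => by
        rw [← restrict_expansion hp0 hp1]
        ring
    rw [ex_congr _ e1, parseval_poly hp0 hp1]
    exact sum_congr rfl fun S _ => by ring
  rw [h1]
  calc ex (wb p) (fun x => f (mrg ω x) ^ 2) ≤ ex (wb p) (fun _ : ι → Bool => (1:ℝ)) := by
        apply ex_mono (wb_nonneg hp0 hp1)
        intro x
        rcases hf (mrg ω x) with h | h <;> rw [h] <;> norm_num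
    _ = 1 := ex_one (wb_sum p)

/-- make the coordinates of `T` alive -/
def fill (T : Finset ι) (ω : ι → Bool × Bool) : ι → Bool × Bool :=
  fun e => if e ∈ T then (true, (ω e).2) else ω e

theorem fill_empty (ω : ι → Bool × Bool) : fill ∅ ω = ω := by
  funext e
  simp [fill]

theorem ex_fill_one (δ p : ℝ) (e : ι) (F : (ι → Bool × Bool) → ℝ) :
    ex (w2 δ p) (fun ω => u2 (ω e) * F ω) = δ * ex (w2 δ p) (fun ω => F (fill {e} ω)) := by
  rw [← ex_resample (w2_sum δ p) e, ← ex_resample (w2_sum δ p) e (fun ω => F (fill {e} ω)),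
    ← ex_const_mul]
  apply ex_congr
  intro ω
  rw [Fintype.sum_prod_type, Fintype.sum_prod_type, Fintype.sum_bool, Fintype.sum_bool]
  have h1 : ∀ a b : Bool, fill {e} (Function.update ω e (a, b)) = Function.update ω e (true, b) := by
    intro a b
    funext i
    unfold fill
    by_cases hi : i = e
    · subst hi
      simp
    · simp [hi]
  simp_rw [h1, Function.update_self]
  unfold w2 u2 wb
  simp only [if_true, Bool.false_eq_true, if_false]
  simp_rw [Fintype.sum_bool]
  simp only [if_true, Bool.false_eq_true, if_false]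
  ring

theorem fill_insert {T : Finset ι} {e : ι} (ω : ι → Bool × Bool) :
    fill (insert e T) ω = fill {e} (fill T ω) := by
  funext i
  unfold fill
  by_cases h1 : i = e
  · subst h1
    simp
    split_ifs <;> rfl
  · simp [h1]

theorem mon_u2_fill_of_notMem {T : Finset ι} {e : ι} (he : e ∉ T) (ω : ι → Bool × Bool) :
    mon u2 T (fill {e} ω) = mon u2 T ω := by
  unfold mon
  apply prod_congr rfl
  intro i hi
  unfold fill
  have : i ≠ e := by
    rintro rfl
    exact he hi
  simp [this]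

theorem ex_fill (δ p : ℝ) (T : Finset ι) :
    ∀ F : (ι → Bool × Bool) → ℝ,
    ex (w2 δ p) (fun ω => mon u2 T ω * F ω) = δ ^ T.card * ex (w2 δ p) (fun ω => F (fill T ω)) := by
  induction T using Finset.induction_on with
  | empty =>
    intro F
    simp [mon, fill_empty]
  | insert e T he ih =>
    intro F
    have e1 : ∀ ω, mon u2 (insert e T) ω * F ω = u2 (ω e) * (mon u2 T ω * F ω) := by
      intro ω
      rw [mon_insert u2 he]
      ring
    rw [ex_congr _ e1, ex_fill_one]
    have e2 : ∀ ω, mon u2 T (fill {e} ω) * F (fill {e} ω) = mon u2 T ω * F (fill {e} ω) := by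
      intro ω
      rw [mon_u2_fill_of_notMem he]
    rw [ex_congr _ e2, ih (fun ω => F (fill {e} ω)), card_insert_of_notMem he]
    simp_rw [← fill_insert]
    ring

/-- coefficients of the polynomial `G_T(fill T ω)` -/
noncomputable def cT (p : ℝ) (f : (ι → Bool) → ℝ) (T R : Finset ι) : ℝ :=
  if Disjoint R T then fhat p f (R ∪ T) else 0

theorem sum_superset (T : Finset ι) (F : Finset ι → ℝ) :
    ∑ S : Finset ι, (if T ⊆ S then F S else 0)
      = ∑ R : Finset ι, (if Disjoint R T then F (R ∪ T) else 0) := by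
  rw [← sum_filter, ← sum_filter]
  apply sum_nbij' (fun S => S \ T) (fun R => R ∪ T)
  · intro S _
    simp [sdiff_disjoint]
  · intro R _
    simp
  · intro S hS
    exact sdiff_union_of_subset (mem_filter.1 hS).2
  · intro R hR
    exact union_sdiff_cancel_right (mem_filter.1 hR).2
  · intro S hS
    rw [sdiff_union_of_subset (mem_filter.1 hS).2]

theorem mon_fill_disjoint (y : Bool × Bool → ℝ) {T R : Finset ι} (h : Disjoint R T)
    (ω : ι → Bool × Bool) : mon y R (fill T ω) = mon y R ω := by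
  unfold mon
  apply prod_congr rfl
  intro i hi
  unfold fill
  rw [if_neg (fun h' => (disjoint_left.1 h hi) h')]

theorem mon_u2_fill (T : Finset ι) (ω : ι → Bool × Bool) : mon u2 T (fill T ω) = 1 := by
  unfold mon
  apply prod_eq_one
  intro i hi
  simp [fill, hi, u2]

theorem GT_fill (p : ℝ) (f : (ι → Bool) → ℝ) (T : Finset ι) (ω : ι → Bool × Bool) :
    GT p f T (fill T ω) = poly (y2 p) (cT p f T) ω := by
  unfold GT
  rw [mon_u2_fill, one_mul, sum_superset T (fun S => fhat p f S * mon (y2 p) (S \ T) (fill T ω))]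
  unfold poly cT
  apply sum_congr rfl
  intro R _
  split_ifs with h
  · rw [union_sdiff_cancel_right h, mon_fill_disjoint _ h]
  · simp

theorem mon_u2_idem (T : Finset ι) (ω : ι → Bool × Bool) : mon u2 T ω * mon u2 T ω = mon u2 T ω := by
  unfold mon
  rw [← prod_mul_distrib]
  apply prod_congr rfl
  intro i _
  unfold u2
  split_ifs <;> simp

theorem mon_u2_mul_GT (p : ℝ) (f : (ι → Bool) → ℝ) (T : Finset ι) (ω : ι → Bool × Bool) :
    mon u2 T ω * GT p f T ω = GT p f T ω := by
  unfold GT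
  rw [← mul_assoc, mon_u2_idem]

theorem mon_u2_nonneg (T : Finset ι) (ω : ι → Bool × Bool) : 0 ≤ mon u2 T ω := by
  unfold mon
  apply prod_nonneg
  intro i _
  unfold u2
  split_ifs <;> norm_num

/-- if `F` is a multiple of `G_T` then its expectation can be computed after filling -/
theorem ex_eq_fill (δ p : ℝ) (T : Finset ι) (F : (ι → Bool × Bool) → ℝ)
    (hF : ∀ ω, mon u2 T ω * F ω = F ω) :
    ex (w2 δ p) F = δ ^ T.card * ex (w2 δ p) (fun ω => F (fill T ω)) := by
  rw [← ex_fill]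
  exact (ex_congr _ hF).symm

/-- influence of `e` on the restricted function -/
noncomputable def InfE (p : ℝ) (f : (ι → Bool) → ℝ) (ω : ι → Bool × Bool) (e : ι) : ℝ :=
  ∑ T : Finset ι, if e ∈ T then GT p f T ω ^ 2 else 0

theorem InfE_nonneg (p : ℝ) (f : (ι → Bool) → ℝ) (ω : ι → Bool × Bool) (e : ι) :
    0 ≤ InfE p f ω e := sum_nonneg fun T _ => by split_ifs <;> positivity

theorem sum_InfE (p : ℝ) (f : (ι → Bool) → ℝ) (ω : ι → Bool × Bool) :
    ∑ e, InfE p f ω e = ∑ T : Finset ι, (T.card : ℝ) * GT p f T ω ^ 2 := by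
  unfold InfE
  rw [sum_comm]
  apply sum_congr rfl
  intro S _
  rw [sum_ite_mem, univ_inter, sum_const, nsmul_eq_mul]

theorem ex_GT_sq {δ p : ℝ} (hp0 : 0 < p) (hp1 : p < 1) (f : (ι → Bool) → ℝ) (T : Finset ι) :
    ex (w2 δ p) (fun ω => GT p f T ω ^ 2)
      = δ ^ T.card * ∑ S : Finset ι, if T ⊆ S then fhat p f S ^ 2 * (1 - δ) ^ (S \ T).card else 0 := by
  rw [ex_eq_fill δ p T (fun ω => GT p f T ω ^ 2) (fun ω => by
    calc mon u2 T ω * GT p f T ω ^ 2 = (mon u2 T ω * GT p f T ω) * GT p f T ω := by ring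
      _ = GT p f T ω ^ 2 := by rw [mon_u2_mul_GT]; ring)]
  congr 1
  simp_rw [GT_fill]
  have e1 : ∀ ω, poly (y2 p) (cT p f T) ω ^ 2 = poly (y2 p) (cT p f T) ω * poly (y2 p) (cT p f T) ω :=
    fun ω => by ring
  rw [ex_congr _ e1, ex_poly_mul (w2_sum δ p) (w2_y1 hp0 hp1) (w2_y2 hp0 hp1),
    sum_superset T (fun S => fhat p f S ^ 2 * (1 - δ) ^ (S \ T).card)]
  apply sum_congr rfl
  intro R _
  unfold cT
  split_ifs with h
  · rw [union_sdiff_cancel_right h]
    ring
  · simp

theorem ex_sum_InfE_le {δ p : ℝ} (hδ0 : 0 < δ) (hδ1 : δ < 1) (hp0 : 0 < p) (hp1 : p < 1)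
    (f : (ι → Bool) → ℝ) :
    ex (w2 δ p) (fun ω => ∑ e, InfE p f ω e) ≤ Kf p f := by
  simp_rw [sum_InfE]
  rw [ex_sum]
  simp_rw [ex_const_mul, ex_GT_sq hp0 hp1]
  have h1 : ∀ T : Finset ι, (T.card : ℝ) * (δ ^ T.card * ∑ S : Finset ι,
      if T ⊆ S then fhat p f S ^ 2 * (1 - δ) ^ (S \ T).card else 0)
      = ∑ S : Finset ι, if T ⊆ S then
        (T.card : ℝ) * (fhat p f S ^ 2 * (δ ^ T.card * (1 - δ) ^ (S \ T).card)) else 0 := by
    intro T
    rw [mul_sum, mul_sum]
    apply sum_congr rfl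
    intro S _
    split_ifs
    · ring
    · simp
  simp_rw [h1]
  rw [sum_comm]
  unfold Kf
  apply sum_le_sum
  intro S _
  rw [← sum_powerset_ite S (fun T => (T.card : ℝ) * (fhat p f S ^ 2 *
    (δ ^ T.card * (1 - δ) ^ (S \ T).card)))]
  have h2 : ∑ T ∈ S.powerset, δ ^ T.card * (1 - δ) ^ (S \ T).card = 1 := by
    have := prod_add (fun _ : ι => δ) (fun _ : ι => 1 - δ) S
    simp only [prod_const, add_sub_cancel, one_pow] at this
    exact this.symm
  calc ∑ T ∈ S.powerset, (T.card : ℝ) * (fhat p f S ^ 2 * (δ ^ T.card * (1 - δ) ^ (S \ T).card))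
      ≤ ∑ T ∈ S.powerset, (S.card : ℝ) * (fhat p f S ^ 2 * (δ ^ T.card * (1 - δ) ^ (S \ T).card)) := by
        apply sum_le_sum
        intro T hT
        apply mul_le_mul_of_nonneg_right
        · exact_mod_cast card_le_card (mem_powerset.1 hT)
        · have : 0 ≤ 1 - δ := by linarith
          positivity
    _ = (S.card : ℝ) * fhat p f S ^ 2 * ∑ T ∈ S.powerset, δ ^ T.card * (1 - δ) ^ (S \ T).card := by
        rw [mul_sum]
        exact sum_congr rfl fun T _ => by ring
    _ = (S.card : ℝ) * fhat p f S ^ 2 := by rw [h2, mul_one]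

end

end Vale.Agent.P063h5
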